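import Vale.Agent.P333.Seg

/-!
Counting rules that hold in every superstring.
-/

namespace Vale.Agent.P333

open Function

/-- Test for initial segments. -/
def pre (x y : Str) : Bool := x.isPrefixOf y

@[simp] lemma pre_eq {x y : Str} : pre x y = true ↔ x <+: y := List.isPrefixOf_iff_prefix

/-- The periodic sequence of a word. -/
def ln (h : Str) (t : ℕ) : ℕ := h.getD (t % h.length) 0

/-- The periodic line of a word. -/
def lz (h : Str) (t : ℤ) : ℕ := h.getD (t % h.length).toNat 0

lemma ln_eq (h : Str) (t : ℕ) : ln h t = lz h t := by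
  rw [ln, lz, ← Int.natCast_mod, Int.toNat_natCast]

lemma lz_per (h : Str) : Periodic (lz h) (h.length : ℤ) := fun i => by simp [lz]

/-- The string starts with `n` letters of the sequence from position `a`. -/
def agr (h : Str) (a n : ℕ) (y : Str) : Bool :=
  decide (n ≤ y.length) &&
    (List.range y.length).all fun t => decide (n ≤ t) || y.getD t 0 == ln h (a + t)

/-- The string differs from the sequence among the first `n` letters. -/
def mis (h : Str) (a n : ℕ) (y : Str) : Bool :=
  (List.range y.length).any fun t => decide (t < n) && !(y.getD t 0 == ln h (a + t))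

lemma agr_eq {h y : Str} {a n : ℕ} : agr h a n y = true ↔ seg (lz h) a (a + n) <+: y := by
  simp only [agr, seg_pre_iff, Bool.and_eq_true, decide_eq_true_eq, List.all_eq_true,
    List.mem_range, Bool.or_eq_true, beq_iff_eq, ln_eq, Nat.cast_add]
  refine ⟨fun ⟨h1, h2⟩ t ht => ?_, fun h1 => ⟨?_, fun t ht => ?_⟩⟩
  · have k : t < y.length := by omega
    rw [← (h2 t k).resolve_left (by omega), List.getD_eq_getElem _ _ k,
      List.getElem?_eq_getElem k]
  · rcases n with _ | n
    · omega
    · have := h1 n (by push_cast; omega)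
      exact (List.getElem?_eq_some_iff.1 this).1
  · refine or_iff_not_imp_left.2 fun k => ?_
    rw [List.getD_eq_getElem?_getD, h1 t (by omega)]; rfl

lemma mis_eq {h y : Str} {a n : ℕ} : mis h a n y = true ↔
    ∃ t < n, t < y.length ∧ y[t]? ≠ some (lz h (a + t)) := by
  simp only [mis, List.any_eq_true, List.mem_range, Bool.and_eq_true, decide_eq_true_eq,
    Bool.not_eq_true', beq_eq_false_iff_ne, ln_eq, Nat.cast_add]
  refine ⟨fun ⟨t, h1, h2, h3⟩ => ⟨t, h2, h1, ?_⟩, fun ⟨t, h2, h1, h3⟩ => ⟨t, h1, h2, ?_⟩⟩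
  · rw [List.getD_eq_getElem _ _ h1] at h3
    simpa [List.getElem?_eq_getElem h1] using h3
  · rw [List.getD_eq_getElem _ _ h1]
    simpa [List.getElem?_eq_getElem h1] using h3

/-- The window closes a chain end at the given offset. -/
def clb (h : Str) (i L : ℕ) (y : Str) (o : ℕ) : Bool :=
  agr h (i + o * h.length - o) (o + L) y.tail &&
    !(y.headD 0 == ln h (i + (o + 1) * h.length - (o + 1))) &&
      mis h i (L + h.length) (y.drop (o + 1))

/-- The meaning of `clb`. -/
def Cl (ω : ℤ → ℕ) (p i j : ℤ) (y : Str) (o : ℕ) : Prop :=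
  seg ω (i - o) j <+: y.tail ∧ y.headD 0 ≠ ω (i - o - 1) ∧
    ∃ t : ℕ, i + t < j + p ∧ o + 1 + t < y.length ∧ y[o + 1 + t]? ≠ some (ω (i + t))

lemma clb_eq {h y : Str} {i L o : ℕ} (hh : h ≠ []) :
    clb h i L y o = true ↔ Cl (lz h) h.length i (i + L) y o := by
  have hp : 0 < h.length := List.length_pos_iff.2 hh
  have e : ∀ o : ℕ, ((i + o * h.length - o : ℕ) : ℤ) = i - o + o * h.length := fun o => by
    have : o ≤ o * h.length := Nat.le_mul_of_pos_right _ hp
    rw [Nat.cast_sub (by omega)]; push_cast; ring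
  simp only [clb, Cl, Bool.and_eq_true, agr_eq, mis_eq, Bool.not_eq_true', beq_eq_false_iff_ne,
    ln_eq, e, and_assoc]
  refine and_congr ?_ (and_congr ?_ ?_)
  · rw [← seg_per (per_mul (lz_per h) o) (a := i - o), show (i : ℤ) + L + o * h.length =
      i - o + o * h.length + (o + L : ℕ) by push_cast; ring]
  · rw [per_mul (lz_per h) _, show (i : ℤ) - (o + 1 : ℕ) = i - o - 1 by push_cast; ring]
  · simp only [List.length_drop, List.getElem?_drop]
    exact exists_congr fun t => and_congr (by omega) (and_congr (by omega) Iff.rfl)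

/-- The number of chain ends closed by a window. -/
def cl (h : Str) (i L : ℕ) (y : Str) : ℕ := (List.range y.length).countP (clb h i L y)

/-- The number of occurrences required by a rule. -/
def req (r : Str × ℕ × Str) (Θ : List Str) : ℕ :=
  max (Θ.countP fun y => pre r.2.2 y.tail)
    (1 + Θ.countP (agr r.1 r.2.1 (r.2.2.length + r.1.length)) +
      (Θ.map (cl r.1 r.2.1 r.2.2.length)).sum)

/-- The windows sit at distinct positions of `T`. -/
def Emb (T : Str) (Θ : List Str) : Prop :=
  ∃ Z : List (Str × ℕ), Θ = Z.map Prod.fst ∧ (Z.map Prod.snd).Nodup ∧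
    ∀ z ∈ Z, z.2 < T.length ∧ z.1 <+: T.drop z.2

/-- Occurrences. -/
def occ (T x : Str) : Finset ℕ := (Finset.range T.length).filter fun t => x <+: T.drop t

lemma mem_occ {T x : Str} (hx : x ≠ []) {t : ℕ} : t ∈ occ T x ↔ x <+: T.drop t := by
  simp only [occ, Finset.mem_filter, Finset.mem_range, and_iff_right_iff_imp]
  intro h
  have := h.length_le
  have := List.length_pos_iff.2 hx
  simp only [List.length_drop] at *
  omega

lemma nodup_le_card {l : List ℕ} (h : l.Nodup) {A : Finset ℕ} (hs : ∀ x ∈ l, x ∈ A) :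
    l.length ≤ A.card := by
  rw [← List.toFinset_card_of_nodup h]
  exact Finset.card_le_card fun x hx => hs x (List.mem_toFinset.1 hx)

lemma Emb.length_le {T : Str} {Θ : List Str} (h : Emb T Θ) : Θ.length ≤ T.length := by
  obtain ⟨Z, rfl, h1, h2⟩ := h
  simpa using nodup_le_card h1 (A := Finset.range T.length) (by simpa using fun a b c => (h2 _ c).1)

lemma Emb.add {T x : Str} {Θ : List Str} (h : Emb T Θ) (hl : ∀ y ∈ Θ, x.length ≤ y.length)
    {E : List Str} (hE : ∀ y ∈ E, y = x) (hd : E.length ≤ (occ T x).card - Θ.countP (pre x)) :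
    Emb T (Θ ++ E) := by
  obtain ⟨Z, rfl, h1, h2⟩ := h
  have k1 : (occ T x ∩ (Z.map Prod.snd).toFinset).card ≤ (Z.map Prod.fst).countP (pre x) := by
    rw [List.countP_map, List.countP_eq_length_filter, ← List.length_map Prod.snd]
    refine le_trans (Finset.card_le_card fun t ht => ?_) (List.toFinset_card_le _)
    simp only [Finset.mem_inter, List.mem_toFinset, List.mem_map, occ, Finset.mem_filter,
      List.mem_filter, comp, pre_eq] at ht ⊢
    obtain ⟨⟨-, k2⟩, z, hz, rfl⟩ := ht
    exact ⟨z, ⟨hz, List.prefix_of_prefix_length_le k2 (h2 z hz).2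
      (hl _ (List.mem_map_of_mem hz))⟩, rfl⟩
  have k2 := Finset.card_sdiff_add_card_inter (occ T x) (Z.map Prod.snd).toFinset
  obtain ⟨D, hD, hD'⟩ := Finset.exists_subset_card_eq
    (show E.length ≤ (occ T x \ (Z.map Prod.snd).toFinset).card by omega)
  refine ⟨Z ++ D.toList.map fun t => (x, t), ?_, ?_, fun z hz => ?_⟩
  · rw [List.map_append, List.map_map]
    congr 1
    rw [List.eq_replicate_of_mem hE]
    exact (List.eq_replicate_iff.2 ⟨by simp [hD'], by simp⟩).symm
  · rw [List.map_append, List.map_map, List.nodup_append]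
    refine ⟨h1, by simpa [comp_def] using D.nodup_toList, fun a ha b hb e => ?_⟩
    subst e
    have : a ∈ D := by simpa using hb
    exact (Finset.mem_sdiff.1 (hD this)).2 (List.mem_toFinset.2 ha)
  · rcases List.mem_append.1 hz with hz | hz
    · exact h2 z hz
    · obtain ⟨t, ht, rfl⟩ := List.mem_map.1 hz
      simpa [occ] using (Finset.mem_sdiff.1 (hD (Finset.mem_toList.1 ht))).1

lemma drop_pre {y T : Str} {c : ℕ} (h : y <+: T.drop c) (k : ℕ) : y.drop k <+: T.drop (c + k) := by
  rw [← List.drop_drop]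
  exact h.drop k

lemma Emb.tails_le {T x : Str} {Θ : List Str} (h : Emb T Θ) (hx : x ≠ []) :
    Θ.countP (fun y => pre x y.tail) ≤ (occ T x).card := by
  obtain ⟨Z, rfl, h1, h2⟩ := h
  rw [List.countP_map, List.countP_eq_length_filter, ← List.length_map fun z => z.2 + 1]
  refine nodup_le_card ?_ ?_
  · have := (h1.sublist (List.filter_sublist.map Prod.snd
      (l₁ := Z.filter ((fun y => pre x y.tail) ∘ Prod.fst)))).map (add_left_injective 1)
    rwa [List.map_map] at this
  · simp only [List.mem_map, List.mem_filter, comp, pre_eq]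
    rintro _ ⟨z, ⟨hz, k⟩, rfl⟩
    rw [← List.drop_one] at k
    exact (mem_occ hx).2 (k.trans (drop_pre (h2 z hz).2 1))

lemma pre_drop_get {y T : Str} {c t : ℕ} (h : y <+: T.drop c) (ht : t < y.length) :
    T[c + t]? = y[t]? := by
  rw [← List.getElem?_drop, pre_iff.1 h t ht]

lemma seg_pre_drop {ω : ℤ → ℕ} {a b : ℤ} {T : Str} {c : ℕ} :
    seg ω a b <+: T.drop c ↔ ∀ t : ℕ, a + t < b → T[c + t]? = some (ω (a + t)) := by
  simp only [seg_pre_iff, List.getElem?_drop]

lemma Cl.facts {ω : ℤ → ℕ} {p i j : ℤ} {y T : Str} {o c : ℕ} (h : Cl ω p i j y o)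
    (hy : y <+: T.drop c) : (∀ t : ℕ, i - o + t < j → T[c + 1 + t]? = some (ω (i - o + t))) ∧
      T[c]? ≠ some (ω (i - o - 1)) ∧
      ∃ t : ℕ, i + t < j + p ∧ o + 1 + t < y.length ∧ T[c + (o + 1) + t]? ≠ some (ω (i + t)) := by
  obtain ⟨h1, h2, t, h3, h4, h5⟩ := h
  rw [← List.drop_one] at h1
  refine ⟨seg_pre_drop.1 (h1.trans (drop_pre hy 1)), ?_, t, h3, h4, ?_⟩
  · have := pre_drop_get hy (show 0 < y.length by omega)
    rw [add_zero] at this
    rw [this]
    cases y with
    | nil => simp
    | cons a y => simpa using h2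
  · rwa [add_assoc, pre_drop_get hy h4]

theorem Emb.chain_le {T s h : Str} {Θ : List Str} (hE : Emb T Θ) (hs : s <:+: T)
    (hmax : ∀ y ∈ Θ, s <:+: y → y.length ≤ s.length) (hh : h ≠ []) {i L : ℕ} (hL : 0 < L)
    (hi : i + L ≤ s.length) (e : seg (lz h) 0 s.length = s) :
    1 + Θ.countP (agr h i (L + h.length)) + (Θ.map (cl h i L)).sum ≤
      (occ T (seg (lz h) i (i + L))).card := by
  obtain ⟨Z, rfl, h1, h2⟩ := hE
  have hp : 0 < h.length := List.length_pos_iff.2 hh
  have hω := lz_per h
  have hx : seg (lz h) i (i + L) ≠ [] := List.length_pos_iff.1 (by simp; omega)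
  have hcl := fun y o => clb_eq (y := y) (i := i) (L := L) (o := o) hh
  have hag := fun y => agr_eq (h := h) (y := y) (a := i) (n := L + h.length)
  generalize h.length = p at *
  generalize lz h = ω at *
  obtain ⟨c, hc⟩ : ∃ c, s <+: T.drop c := by
    obtain ⟨A, B, rfl⟩ := hs
    exact ⟨A.length, by simp⟩
  have hc' : seg ω 0 s.length <+: T.drop c := by rw [e]; exact hc
  have hex : ∃ n : ℕ, ¬ seg ω i (i + (L + p : ℕ)) <+: T.drop (c + i + n * p) :=
    ⟨T.length, fun k => by
      have k1 := k.length_le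
      have k2 : T.length ≤ T.length * p := Nat.le_mul_of_pos_right _ hp
      simp only [length_seg, List.length_drop] at k1
      omega⟩
  classical
  have hn1 := Nat.find_spec hex
  have hn2 : ∀ n ≤ Nat.find hex, seg ω 0 (i + L + n * p : ℕ) <+: T.drop c := by
    intro n
    induction n with
    | zero => exact fun _ => (seg_pre (by omega)).trans hc'
    | succ n ih =>
      intro hn
      have k1 := seg_pre_drop.1 (ih (by omega))
      have k2 := seg_pre_drop.1 (not_not.1 (Nat.find_min hex (show n < _ by omega)))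
      refine seg_pre_drop.2 fun t ht => ?_
      rw [add_mul, one_mul] at ht
      by_cases k3 : t < i + L + n * p
      · exact k1 t (by omega)
      · obtain ⟨t, rfl⟩ : ∃ t', t = i + n * p + t' := ⟨t - (i + n * p), by omega⟩
        rw [← add_assoc, ← add_assoc, k2 t (by omega), ← per_mul hω n]
        congr 2; push_cast; ring
  generalize Nat.find hex = n at hn1 hn2
  have hn3 := seg_pre_drop.1 (hn2 n le_rfl)
  have hs' : ∀ t : ℕ, t < s.length → T[c + t]? = some (ω t) := fun t ht => by
    have := seg_pre_drop.1 hc' t (by omega)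
    rwa [zero_add] at this
  let F : Str × ℕ → List ℕ := fun z =>
    ((List.range z.1.length).filter (clb h i L z.1)).map fun o => z.2 + (o + 1)
  have hF : ∀ z ∈ Z, ∀ t ∈ F z, ∃ o, t = z.2 + (o + 1) ∧ Cl ω p i (i + L) z.1 o := by
    intro z _ t ht
    obtain ⟨o, ho, rfl⟩ := List.mem_map.1 ht
    exact ⟨o, rfl, (hcl _ _).1 (List.mem_filter.1 ho).2⟩
  have key := nodup_le_card (A := occ T (seg ω i (i + L))) (l := (c + i + n * p) ::
    ((Z.filter fun z => agr h i (L + p) z.1).map Prod.snd ++ Z.flatMap F)) ?_ ?_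
  · refine le_trans (le_of_eq ?_) key
    rw [List.countP_map]
    simp only [List.length_cons, List.length_append, List.length_map, List.length_flatMap, F,
      List.map_map, List.countP_eq_length_filter, comp_def, cl]
    omega
  · have hv : ∀ t ∈ (Z.filter fun z => agr h i (L + p) z.1).map Prod.snd,
        seg ω i (i + (L + p : ℕ)) <+: T.drop t := by
      intro t ht
      obtain ⟨z, hz, rfl⟩ := List.mem_map.1 ht
      rw [List.mem_filter] at hz
      exact ((hag _).1 hz.2).trans (h2 z hz.1).2
    rw [List.nodup_cons, List.mem_append, not_or, List.nodup_append]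
    refine ⟨⟨fun k => hn1 (hv _ k), fun k => ?_⟩, h1.sublist (List.filter_sublist.map _), ?_,
      fun a ha b hb k => ?_⟩
    · obtain ⟨z, hz, k⟩ := List.mem_flatMap.1 k
      obtain ⟨o, k1, k2⟩ := hF z hz _ k
      obtain ⟨-, k3, t, k4, k5, k6⟩ := k2.facts (h2 z hz).2
      have k7 : z.2 < c := by
        by_contra k7
        have := hn3 (z.2 - c) (by omega)
        rw [show c + (z.2 - c) = z.2 by omega, show (0 : ℤ) + (z.2 - c : ℕ) =
          i - o - 1 + n * p by omega, per_mul hω] at this
        exact k3 this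
      have k8 : s.length ≤ i + n * p + t := by
        by_contra k8
        have := hs' (i + n * p + t) (by omega)
        rw [show c + (i + n * p + t) = z.2 + (o + 1) + t by omega,
          show ((i + n * p + t : ℕ) : ℤ) = i + t + n * p by push_cast; ring, per_mul hω] at this
        exact k6 this
      have k9 : s <+: z.1.drop (c - z.2) := by
        have := drop_pre (h2 z hz).2 (c - z.2)
        rw [show z.2 + (c - z.2) = c by omega] at this
        exact List.prefix_of_prefix_length_le hc this (by simp; omega)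
      have := hmax _ (List.mem_map_of_mem hz)
        (k9.isInfix.trans (List.drop_suffix _ _).isInfix)
      omega
    · have aux : ∀ z ∈ Z, ∀ z' ∈ Z, ∀ o o', Cl ω p i (i + L) z.1 o → Cl ω p i (i + L) z'.1 o' →
          z.2 + (o + 1) = z'.2 + (o' + 1) → ¬ o < o' := by
        intro z hz z' hz' o o' k k' k1 k2
        have k3 := (k'.facts (h2 z' hz').2).1 (o' - o - 1) (by omega)
        rw [show z'.2 + 1 + (o' - o - 1) = z.2 by omega,
          show (i : ℤ) - o' + (o' - o - 1 : ℕ) = i - o - 1 by omega] at k3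
        exact (k.facts (h2 z hz).2).2.1 k3
      rw [List.nodup_flatMap]
      refine ⟨fun z _ => (List.nodup_range.filter _).map fun a b k => by simpa using k, ?_⟩
      refine (List.pairwise_map.1 h1).imp_of_mem fun {z z'} hz hz' k t k1 k2 => ?_
      obtain ⟨o, l1, l2⟩ := hF z hz _ k1
      obtain ⟨o', l3, l4⟩ := hF z' hz' _ k2
      have := aux z hz z' hz' o o' l2 l4 (by omega)
      have := aux z' hz' z hz o' o l4 l2 (by omega)
      omega
    · subst k
      obtain ⟨z, hz, k⟩ := List.mem_flatMap.1 hb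
      obtain ⟨o, rfl, k2⟩ := hF z hz _ k
      obtain ⟨-, -, t, k4, -, k6⟩ := k2.facts (h2 z hz).2
      exact k6 (seg_pre_drop.1 (hv _ ha) t (by push_cast; omega))
  · intro t ht
    rw [mem_occ hx]
    rcases List.mem_cons.1 ht with rfl | ht
    · refine seg_pre_drop.2 fun t ht => ?_
      have := hn3 (i + n * p + t) (by omega)
      rwa [← add_assoc, ← add_assoc, show (0 : ℤ) + ((i + n * p + t : ℕ) : ℤ) = i + t + n * p by
        push_cast; ring, per_mul hω] at this
    rcases List.mem_append.1 ht with ht | ht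
    · obtain ⟨z, hz, rfl⟩ := List.mem_map.1 ht
      rw [List.mem_filter] at hz
      exact ((seg_pre (by push_cast; omega)).trans ((hag _).1 hz.2)).trans (h2 z hz.1).2
    · obtain ⟨z, hz, k⟩ := List.mem_flatMap.1 ht
      obtain ⟨o, rfl, k2⟩ := hF z hz _ k
      refine seg_pre_drop.2 fun t ht => ?_
      have := (k2.facts (h2 z hz).2).1 (o + t) (by push_cast; omega)
      rwa [show z.2 + 1 + (o + t) = z.2 + (o + 1) + t by omega,
        show (i : ℤ) - o + (o + t : ℕ) = i + t by push_cast; ring] at this

end Vale.Agent.P333
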