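import Vale.Agent.P333.Step

/-!
The main lemma: while some window is not covered by the main walk, a paying bridge exists.
-/

namespace Vale.Agent.P333

open Function

variable {C R : List (List Str)} {VM : Str → Prop} {m : ℕ} {ω : ℤ → ℕ} {p : ℤ}

/-- A remaining cycle on another line with a maximal run that contains part of its staircase. -/
structure Run (R : List (List Str)) (ω : ℤ → ℕ) (p : ℤ) (Q : List Str) (τ : ℤ → ℕ) (g : ℤ → ℤ)
    (α β : ℤ) : Prop where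
  mem : Q ∈ R
  st : St Q τ g
  ag : ∀ t, α ≤ t → t < β → τ t = ω t
  ne : τ β ≠ ω β
  short : β - α < p + Q.length
  le : g (α - 1) ≤ β

/-- The lower envelope of the aligned staircases. -/
structure Env (R : List (List Str)) (ω : ℤ → ℕ) (p : ℤ) (F : ℤ → ℤ) : Prop where
  mono : Monotone F
  per : ∀ i, F (i + p) = F i + p
  lt : ∀ i, i < F i
  bnd : ∃ M, ∀ i, F i ≤ i + M
  vtx : ∀ a r, F (a - 1) ≤ r → r ≤ F a →
    ∃ P g, P ∈ R ∧ St P ω g ∧ p ≤ P.length ∧ g (a - 1) ≤ r ∧ r ≤ g a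
  prov : ∀ a b, F (a - 1) ≤ b + p → b + p ≤ F a →
    ∃ Q τ g α β, Run R ω p Q τ g α β ∧ α ≤ a ∧ b ≤ β

lemma Run.long {Q τ g α β} (h : Ctx C R VM m) (r : Run R ω p Q τ g α β) :
    (Q.length : ℤ) < g (α - 1) - α :=
  h.long r.mem r.st le_rfl (r.st.mono (by omega))

lemma Run.ne_al {Q τ g α β P g'} (h : Ctx C R VM m) (r : Run R ω p Q τ g α β) (hP : St P ω g') :
    P ≠ Q := by
  rintro rfl
  have k1 := r.long h
  have k2 := r.le
  have k3 := hP.pos
  exact r.ne (congrFun (eq_of_agree (a := α) (by omega) r.st.per hP.per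
    fun t l1 l2 => r.ag t l1 (by omega)) _)

lemma Run.first {Q τ g α β} (r : Run R ω p Q τ g α β) : CV Q (seg ω α (g (α - 1))) := by
  rw [← seg_congr fun t l1 l2 => r.ag t l1 (l2.trans_le r.le)]
  exact r.st.vtx _ _ le_rfl (r.st.mono (by omega))

lemma Run.last {Q τ g α β} (r : Run R ω p Q τ g α β) : ∃ c, α ≤ c ∧ c ≤ β ∧ CV Q (seg ω c β) := by
  obtain ⟨c, h1, h2, h3, h4⟩ := r.st.cross r.le
  refine ⟨c, h1, h2, ?_⟩
  rw [← seg_congr fun t l1 l2 => r.ag t (h1.trans l1) l2]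
  exact r.st.vtx _ _ h3 h4

lemma Env.high {F : ℤ → ℤ} (h : Ctx C R VM m) (E : Env R ω p F) {Q τ g α β}
    (r : Run R ω p Q τ g α β) : β < F (α - 1) := by
  by_contra k
  obtain ⟨P, g', k1, k2, k3, k4, k5⟩ := E.vtx α (F (α - 1)) le_rfl (E.mono (by omega))
  have k6 := r.long h
  have k7 := r.le
  have k8 := r.short
  have := h.ground k1 k2 (show α < β by omega) (N := [P, Q]) (by simpa using r.ne_al h k2)
    (by simp) (by
      simp only [List.mem_cons, List.not_mem_nil, or_false, forall_eq_or_imp, forall_eq]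
      exact ⟨⟨k1, Or.inl ⟨_, by omega, k2.vtx _ _ k4 k5⟩⟩, r.mem, Or.inl ⟨_, k7, r.first⟩⟩)
  simp only [List.map_cons, List.map_nil, List.sum_cons, List.sum_nil] at this
  omega

theorem Env.false {F : ℤ → ℤ} (h : Ctx C R VM m) (E : Env R ω p F)
    (hω : Periodic ω p) : False := by
  obtain ⟨ℓ, ⟨Q1, τ1, g1, α1, β1, r1, rfl⟩, hmax⟩ := Int.exists_greatest_of_bdd
    (P := fun ℓ => ∃ Q τ g α β, Run R ω p Q τ g α β ∧ β - α = ℓ)
    ⟨p + ((R.map List.length).sum : ℕ), by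
      rintro _ ⟨Q, τ, g, α, β, r, rfl⟩
      have := r.short
      have := List.single_le_sum (l := R.map List.length) (by simp) _
        (List.mem_map_of_mem r.mem)
      omega⟩ (by
      obtain ⟨Q, τ, g, α, β, r, -⟩ := E.prov 0 (F 0 - p)
        (by have := E.mono (show 0 - 1 ≤ 0 by omega); omega) (by omega)
      exact ⟨_, Q, τ, g, α, β, r, rfl⟩)
  have k1 := E.high h r1
  obtain ⟨a, ha1, ha2⟩ := Int.exists_least_of_bdd (P := fun a => β1 + 1 + p ≤ F a)
    (let ⟨M, hM⟩ := E.bnd; ⟨β1 + 1 + p - M, fun a k => by have := hM a; omega⟩)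
    ⟨β1 + p, by have := E.lt (β1 + p); omega⟩
  have k2 : F (a - 1) ≤ β1 + p := by
    by_contra k
    have := ha2 (a - 1) (by omega)
    omega
  have k3 : a ≤ α1 - 1 + p := ha2 _ (by rw [E.per]; omega)
  obtain ⟨Q2, τ2, g2, α2, β2, r2, k4, k5⟩ := E.prov a (β1 + 1) (by omega) ha1
  have k6 := hmax _ ⟨Q2, τ2, g2, α2, β2, r2, rfl⟩
  have k7 := E.high h r2
  have k8 := E.mono (show α2 - 1 ≤ a - 1 by omega)
  have k9 := r2.long h
  have k10 := r2.le
  have e1 := E.per (a - p - 1)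
  have e2 := E.per (a - p)
  rw [show a - p - 1 + p = a - 1 by ring] at e1
  rw [sub_add_cancel] at e2
  obtain ⟨P, g, l1, l2, l3, l4, l5⟩ := E.vtx (a - p) β1 (by omega) (by omega)
  obtain ⟨c, l6, l7, l8⟩ := r1.last
  have l9 := E.lt (a - p - 1)
  have v0 : P ∈ R ∧ ((∃ t ≤ β1, CV P (seg ω (α2 - p) t)) ∨
      ∃ t, α2 - p ≤ t ∧ t ≤ β1 ∧ CV P (seg ω t β1)) :=
    ⟨l1, Or.inr ⟨a - p, by omega, by omega, l2.vtx _ _ l4 l5⟩⟩
  have v1 : Q1 ∈ R ∧ ((∃ t ≤ β1, CV Q1 (seg ω (α2 - p) t)) ∨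
      ∃ t, α2 - p ≤ t ∧ t ≤ β1 ∧ CV Q1 (seg ω t β1)) :=
    ⟨r1.mem, Or.inr ⟨c, by omega, l7, l8⟩⟩
  have v2 : Q2 ∈ R ∧ ((∃ t ≤ β1, CV Q2 (seg ω (α2 - p) t)) ∨
      ∃ t, α2 - p ≤ t ∧ t ≤ β1 ∧ CV Q2 (seg ω t β1)) :=
    ⟨r2.mem, Or.inl ⟨g2 (α2 - 1) - p, by omega, by
      rw [← seg_per hω, sub_add_cancel, sub_add_cancel]; exact r2.first⟩⟩
  have q1 := r1.st.pos
  have q2 := r2.st.pos
  have hne : α2 ≤ β1 → τ1 ≠ τ2 := fun k e => r1.ne (e ▸ r2.ag β1 k (by omega))
  have hag : ∀ t, α2 ≤ t → t < β1 → τ1 t = τ2 t := fun t l l' => by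
    rw [r1.ag t (by omega) l', r2.ag t l (by omega)]
  by_cases hQ : Q1 = Q2
  · subst hQ
    have := h.ground l1 l2 (show α2 - p < β1 by omega) (N := [P, Q1])
      (by simpa using r1.ne_al h l2) (by simp) (by
        simp only [List.mem_cons, List.not_mem_nil, or_false, forall_eq_or_imp, forall_eq]
        exact ⟨v0, v1⟩)
    simp only [List.map_cons, List.map_nil, List.sum_cons, List.sum_nil] at this
    exact hne (by omega) (eq_of_agree (a := α2) (by omega) r1.st.per r2.st.per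
      fun t l l' => hag t l (by omega))
  · have := h.ground l1 l2 (show α2 - p < β1 by omega) (N := [P, Q1, Q2])
      (by simpa using ⟨⟨r1.ne_al h l2, r2.ne_al h l2⟩, hQ⟩) (by simp) (by
        simp only [List.mem_cons, List.not_mem_nil, or_false, forall_eq_or_imp, forall_eq]
        exact ⟨v0, v1, v2⟩)
    simp only [List.map_cons, List.map_nil, List.sum_cons, List.sum_nil] at this
    exact hne (by omega) (eq_of_agree2 (a := α2) (by omega) (by omega) r1.st.per r2.st.per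
      fun t l l' => hag t l (by omega))

lemma exists_shift (hp : 0 < p) (a c : ℤ) : ∃ n : ℤ, c ≤ a + n * p ∧ a + n * p < c + p := by
  have k1 := Int.emod_nonneg (a - c) hp.ne'
  have k2 := Int.emod_lt_of_pos (a - c) hp
  have k3 := Int.emod_add_ediv_mul (a - c) p
  exact ⟨-((a - c) / p), by linarith, by linarith⟩

theorem exists_good (sub : ∀ Q ∈ R, Q ∈ C) (nil : VM []) (bnd : ∀ Q ∈ C, ∀ y ∈ Q, y.length ≤ m)
    (habs : ∀ Q ∈ C, Q ∈ R ∨ ∀ z, CV Q z → VM z) {K : List Str} {gK : ℤ → ℤ} (hK : K ∈ R)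
    (hS : St K ω gK) (hs : ∀ z, VM z → ¬ seg ω 0 (gK 0) <:+: z)
    (rule : ∀ p i j : ℤ, 0 < p → p ≤ gK 0 → Periodic ω p → 0 ≤ i → i < j → j ≤ gK 0 →
      ∃ Q ∈ C, ∃ τ g, St Q τ g ∧ End ω p i j τ g) : Good C R VM m := by
  by_contra bad
  have h : Ctx C R VM m := ⟨sub, nil, bnd, bad⟩
  obtain ⟨p, ⟨hp, hω⟩, hmin⟩ := Int.exists_least_of_bdd (P := fun q => 0 < q ∧ Periodic ω q)
    ⟨0, fun _ k => k.1.le⟩ ⟨K.length, by have := hS.pos; omega, hS.per⟩
  have hpq : ∀ {P g}, St P ω g → p ≤ P.length := fun k =>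
    hmin _ ⟨by have := k.pos; omega, k.per⟩
  have hsp : p ≤ gK 0 := by
    have := h.long hK hS (l := 0) (hS.mono (by omega)) le_rfl
    have := hpq hS
    omega
  have hM : ∀ {a b} (n : ℤ), VM (seg ω a b) → VM (seg ω (a + n * p) (b + n * p)) :=
    fun n k => by rwa [seg_per (per_mul hω n)]
  let H : List Str → (ℤ → ℤ) → Prop := fun P g =>
    P ∈ R ∧ St P ω g ∧ ∀ a b, VM (seg ω a b) → b < g (a - p - 1)
  have HK : H K gK := ⟨hK, hS, fun a b k => by
    refine (h.dich hK hS hp hω (hpq hS) k).resolve_right fun k1 => ?_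
    obtain ⟨n, k2, k3⟩ := exists_shift hp a 0
    have k4 := h.above hK hS hp hω (hpq hS) k k1 n
    have k5 := hS.mono k2
    exact hs _ (hM (n - 1) k) (seg_sub (by linarith) (by linarith))⟩
  have Hsh : ∀ P g, H P g → ∀ n : ℤ, H P fun i => g (i + n * p) - n * p := fun P g k n => by
    refine ⟨k.1, ?_, fun a b k1 => ?_⟩
    · have := k.2.1.shift (n * p)
      rwa [show (fun i => ω (i + n * p)) = ω from funext (per_mul hω n)] at this
    · have := k.2.2 _ _ (hM n k1)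
      rw [show a + n * p - p - 1 = a - p - 1 + n * p by ring] at this
      simp only; omega
  choose F F1 F2 using fun i => Int.exists_least_of_bdd (P := fun v => ∃ P g, H P g ∧ g i = v)
    ⟨i, by rintro _ ⟨P, g, k, rfl⟩; exact (k.2.1.lt i).le⟩ ⟨_, K, gK, HK, rfl⟩
  replace F2 : ∀ P g, H P g → ∀ i, F i ≤ g i := fun P g k i => F2 i _ ⟨P, g, k, rfl⟩
  have Fmono : Monotone F := fun i j hij => by
    obtain ⟨P, g, k, e⟩ := F1 j
    exact (F2 P g k i).trans (e ▸ k.2.1.mono hij)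
  have Fper : ∀ i (n : ℤ), F (i + n * p) = F i + n * p := fun i n => by
    obtain ⟨P, g, k, e⟩ := F1 i
    obtain ⟨P', g', k', e'⟩ := F1 (i + n * p)
    have k1 := F2 _ _ (Hsh P g k (-n)) (i + n * p)
    have k2 := F2 _ _ (Hsh P' g' k' n) i
    simp only [neg_mul, add_neg_cancel_right] at k1 k2
    omega
  have Fper1 : ∀ i, F (i + p) = F i + p := fun i => by simpa using Fper i 1
  have FH : ∀ a b, VM (seg ω a b) → b + p < F (a - 1) := fun a b k => by
    obtain ⟨P, g, k1, e⟩ := F1 (a - 1)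
    have := k1.2.2 _ _ (hM 1 k)
    rwa [one_mul, add_sub_cancel_right, e] at this
  have Fv : ∀ a r, F (a - 1) ≤ r → r ≤ F a →
      ∃ P g, P ∈ R ∧ St P ω g ∧ p ≤ P.length ∧ g (a - 1) ≤ r ∧ r ≤ g a := fun a r k1 k2 => by
    obtain ⟨P, g, k, e⟩ := F1 (a - 1)
    exact ⟨P, g, k.1, k.2.1, hpq k.2.1, e ▸ k1, k2.trans (F2 P g k a)⟩
  refine Env.false h (F := F) ⟨Fmono, Fper1, fun i => ?_, ⟨m, fun i => ?_⟩, Fv,
    fun a b k1 k2 => ?_⟩ hω
  · obtain ⟨P, g, k, e⟩ := F1 i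
    exact e ▸ k.2.1.lt i
  · have k1 := F2 _ _ HK i
    have k2 := bnd K (sub K hK) _ (hS.mem i)
    rw [length_seg] at k2
    omega
  obtain ⟨P, g0, l1, l2, l3, l4, l5⟩ := Fv a _ k1 k2
  have hab : a < b := by have := h.long l1 l2 l4 l5; omega
  obtain ⟨n, n1, n2⟩ := exists_shift hp a 1
  have n3 : b + n * p ≤ gK 0 := by
    have k3 := Fmono (show a + n * p ≤ 0 + p by omega)
    have k4 := F2 _ _ HK 0
    rw [Fper, Fper1] at k3
    omega
  obtain ⟨Q, hQ, τ0, g1, hS0, hE0⟩ := rule p (a + n * p) (b + n * p) hp hsp hω (by omega)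
    (by omega) n3
  have hE := hE0.shift (per_mul hω n)
  have hSt := hS0.shift (n * p)
  rw [add_sub_cancel_right, add_sub_cancel_right] at hE
  generalize (fun t => τ0 (t + n * p)) = τ at hE hSt
  generalize (fun t => g1 (t + n * p) - n * p) = g at hE hSt
  have k3 := hE.le
  have k4 := hSt.mono (show a - 1 ≤ a by omega)
  by_cases hτ : τ = ω
  · subst hτ
    have k5 : g a < b + p := by
      by_contra k5
      exact hE.stop ⟨by omega, fun _ _ _ => rfl⟩
    rcases habs Q hQ with hR | hR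
    · have : H Q g := ⟨hR, hSt, fun a' b' k => by
        refine (h.dich hR hSt hp hω (hpq hSt) k).resolve_right fun k6 => ?_
        obtain ⟨n', n4, n5⟩ := exists_shift hp a' a
        have k7 := h.above hR hSt hp hω (hpq hSt) k k6 n'
        have k8 := hSt.mono n4
        have k9 := FH _ _ (hM n' k)
        have k10 := Fmono (show a' + n' * p - 1 ≤ a - 1 + p by omega)
        rw [Fper1] at k10
        omega⟩
      have := F2 _ _ this a
      omega
    · have := FH _ _ (hR _ (hSt.vtx a (g a) k4 le_rfl))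
      omega
  · obtain ⟨α, β, r1, r2, r3, r4, r5, r6⟩ := hE.run hSt hp hω hab hτ
    rcases habs Q hQ with hR | hR
    · exact ⟨Q, τ, g, α, β, ⟨hR, hSt, r3, r4, r5, r6⟩, r1, r2⟩
    · obtain ⟨c, c1, c2, c3, c4⟩ := hSt.cross r6
      by_cases hc : c ≤ a
      · have k5 := hR _ (hSt.vtx c β c3 c4)
        rw [seg_congr fun t t1 t2 => r3 t (by omega) t2] at k5
        have k6 := FH _ _ k5
        have k7 := Fmono (show c - 1 ≤ a - 1 by omega)
        omega
      · have k5 := hR _ (hSt.vtx a (g a) k4 le_rfl)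
        have k6 := hSt.mono (show a ≤ c - 1 by omega)
        rw [seg_congr fun t t1 t2 => r3 t (by omega) (by omega)] at k5
        have := FH _ _ k5
        omega

end Vale.Agent.P333
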