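import Vale.Agent.P333.Cycles
import Vale.Agent.P333.Main

/-!
From the counting rule to an uncovered chain end in some cycle.
-/

namespace Vale.Agent.P333

open Function

lemma seg_get_eq {ω τ : ℤ → ℕ} {a b c : ℤ} : seg ω a b <+: seg τ a c ↔
    (a < b → b ≤ c) ∧ ∀ t, a ≤ t → t < b → τ t = ω t := by
  refine ⟨fun h => ⟨fun k => ?_, fun t h1 h2 => ?_⟩, fun ⟨h1, h2⟩ => ?_⟩
  · have := h.length_le
    simp only [length_seg] at this
    omega
  · have := seg_pre_iff.1 h (t - a).toNat (by omega)
    rw [getElem?_seg, show a + ((t - a).toNat : ℕ) = t by omega] at this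
    split_ifs at this
    exact Option.some.inj this
  · by_cases k : a < b
    · rw [← seg_congr h2]
      exact seg_pre (h1 k)
    · rw [show seg ω a b = [] from List.length_eq_zero_iff.1 (by simp; omega)]
      exact List.nil_prefix

lemma Cyc.covered {Q : List Str} (hQ : Cyc Q) {ω : ℤ → ℕ} {p i j : ℤ} (hij : i < j)
    (h : ∀ τ g, St Q τ g → ¬ End ω p i j τ g) (m : ℤ) (h1 : seg ω i j <+: win Q m)
    (h2 : ¬ seg ω i (j + p) <+: win Q m) : ∃ o : ℕ, Cl ω p i j (win Q (m - o - 1)) o := by
  have hS := hQ.st.shift (m - i)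
  have hw : ∀ t, seg (fun t => lineOf Q (t + (m - i))) t
      ((fun t => stairOf Q (t + (m - i)) - (m - i)) t) = win Q (t + (m - i)) := fun t => by
    rw [seg_shift]; simp only [sub_add_cancel]; exact hQ.win_eq _
  generalize (fun t => lineOf Q (t + (m - i))) = τ at hS hw
  generalize (fun t => stairOf Q (t + (m - i)) - (m - i)) = g at hS hw
  rw [show m = i + (m - i) by ring, ← hw, seg_get_eq] at h1 h2
  by_contra k
  refine h τ g hS ⟨h1.1 hij, h1.2, fun k1 => h2 ⟨fun _ => k1.1, k1.2⟩,
    fun α a1 a2 a3 a4 t a5 a6 a7 => ?_⟩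
  by_contra a8
  obtain ⟨o, rfl⟩ : ∃ o : ℕ, α = i - o := ⟨(i - α).toNat, by omega⟩
  refine k ⟨o, ?_⟩
  rw [show m - o - 1 = i - o - 1 + (m - i) by ring, ← hw]
  refine ⟨?_, ?_, (t - i).toNat, by omega, by simp; omega, ?_⟩
  · rw [← List.drop_one, drop_seg, show i - o - 1 + (1 : ℕ) = i - o by simp, seg_get_eq]
    exact ⟨fun _ => a4, a2⟩
  · rw [List.headD_eq_head?_getD, List.head?_eq_getElem?, getElem?_seg,
      if_pos (by have := hS.lt (i - o - 1); omega)]
    simpa using a3
  · rw [getElem?_seg, if_pos (by omega), show i + ((t - i).toNat : ℕ) = t by omega,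
      show i - o - 1 + (o + 1 + (t - i).toNat : ℕ) = t by omega]
    simpa using a8

lemma map_getD_range (Q : List Str) : (List.range Q.length).map (fun m => Q.getD m []) = Q :=
  List.ext_getElem (by simp) fun i h1 h2 => by simp [h2]

lemma Cyc.count_le {Q : List Str} (hQ : Cyc Q) {h : Str} (hh : h ≠ []) {i L : ℕ} (hL : 0 < L)
    (hE : ∀ τ g, St Q τ g → ¬ End (lz h) h.length i (i + L) τ g) :
    Q.countP (pre (seg (lz h) i (i + L))) ≤
      Q.countP (agr h i (L + h.length)) + (Q.map (cl h i L)).sum := by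
  have hq : (0 : ℤ) < Q.length := by have := hQ.st.pos; omega
  have hw : ∀ m : ℕ, m < Q.length → win Q m = Q.getD m [] := fun m hm => by
    rw [win, ← Int.natCast_mod, Int.toNat_natCast, Nat.mod_eq_of_lt hm]
  have key := fun m k1 k2 => hQ.covered (by omega) hE m k1 k2
  choose! o ho using key
  have k1 : Q.countP (pre (seg (lz h) i (i + L))) ≤ Q.countP (agr h i (L + h.length)) +
      Q.countP fun y => pre (seg (lz h) i (i + L)) y && !agr h i (L + h.length) y := by
    generalize Q = l
    induction l with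
    | nil => simp
    | cons y l ih =>
      simp only [List.countP_cons]
      cases pre (seg (lz h) i (i + L)) y <;> cases agr h i (L + h.length) y <;> simp <;> omega
  refine k1.trans (Nat.add_le_add_left ?_ _)
  have k2 := List.Subperm.length_le (List.Nodup.subperm
    (l₁ := ((List.range Q.length).filter fun m => pre (seg (lz h) i (i + L)) (Q.getD m []) &&
      !agr h i (L + h.length) (Q.getD m [])).map fun m : ℕ =>
        ((((m : ℤ) - o m - 1) % Q.length).toNat, o m))
    (l₂ := (List.range Q.length).flatMap fun m => ((List.range (Q.getD m []).length).filter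
      (clb h i L (Q.getD m []))).map fun o => (m, o)) ?_ ?_)
  · conv_lhs => rw [← map_getD_range Q, List.countP_map, List.countP_eq_length_filter]
    conv_rhs => rw [← map_getD_range Q, List.map_map]
    simpa only [List.length_map, List.length_flatMap, comp_def, cl,
      List.countP_eq_length_filter] using k2
  · refine (List.nodup_range.filter _).map_on fun a ha b hb e => ?_
    simp only [List.mem_filter, List.mem_range, Prod.mk.injEq] at ha hb e
    have l1 := Int.emod_nonneg (a - o a - 1) hq.ne'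
    have l2 := Int.emod_nonneg (b - o b - 1) hq.ne'
    have l3 : ((a : ℤ) - o a - 1) % Q.length = (b - o a - 1) % Q.length := by
      rw [← e.2] at l2 e; omega
    have l4 := (Int.ModEq.add_right (o a + 1) l3).eq
    simp only [show ∀ x y : ℤ, x - y - 1 + (y + 1) = x from fun _ _ => by ring] at l4
    rw [Int.emod_eq_of_lt (by omega) (by omega), Int.emod_eq_of_lt (by omega) (by omega)] at l4
    omega
  · intro x hx
    obtain ⟨m, hm, rfl⟩ := List.mem_map.1 hx
    simp only [List.mem_filter, List.mem_range, Bool.and_eq_true, pre_eq, Bool.not_eq_true',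
      ← Bool.not_eq_true, agr_eq] at hm
    have l1 := Int.emod_nonneg (m - o m - 1) hq.ne'
    have l2 := Int.emod_lt_of_pos (m - o m - 1) hq
    have l3 := ho m (hw m hm.1 ▸ hm.2.1) (by
      rw [hw m hm.1, add_assoc, ← Nat.cast_add]; exact hm.2.2)
    refine List.mem_flatMap.2 ⟨_, List.mem_range.2 (by omega), List.mem_map_of_mem
      (List.mem_filter.2 ⟨List.mem_range.2 ?_, (clb_eq hh).2 l3⟩)⟩
    obtain ⟨-, -, t, -, l4, -⟩ := l3
    exact lt_of_le_of_lt (by omega) l4

theorem exists_end {S : List Str} (hS : Free S) {C : List (List Str)} (hC : ∀ Q ∈ C, Cyc Q)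
    (hp : C.flatten.Perm (theta S)) {ω : ℤ → ℕ} {b : ℤ} (hs : seg ω 0 b ∈ S) (p i j : ℤ)
    (h0 : 0 < p) (h1 : p ≤ b) (hω : Periodic ω p) (h2 : 0 ≤ i) (h3 : i < j) (h4 : j ≤ b) :
    ∃ Q ∈ C, ∃ τ g, St Q τ g ∧ End ω p i j τ g := by
  obtain ⟨p, rfl⟩ := Int.eq_ofNat_of_zero_le h0.le
  obtain ⟨i, rfl⟩ := Int.eq_ofNat_of_zero_le h2
  obtain ⟨L, rfl⟩ : ∃ L : ℕ, j = i + L := ⟨(j - i).toNat, by omega⟩
  have e0 : ((seg ω 0 b).length : ℤ) = b := by simp; omega
  generalize e : seg ω 0 b = s at hs e0
  subst e0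
  have e1 := lz_take e (by omega) (by omega) hω
  have e2 : (s.take p).length = p := by simp; omega
  have hh : s.take p ≠ [] := List.length_pos_iff.1 (by omega)
  have k1 := (theta_spec hS).2.1 _ (mem_rules hs (p := p) (i := i) (L := L) (by omega) (by omega)
    (by omega) (by omega) (by rw [e1, e]))
  have e3 : ((s.drop i).take L).length = L := by simp; omega
  simp only [req, max_le_iff, e3] at k1
  rw [← seg_eq_take_drop e (by omega), ← hp.countP_eq, ← hp.countP_eq, ← hp.countP_eq,
    ← (hp.map _).sum_eq, ← e1] at k1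
  by_contra k
  have k2 : ∀ Q ∈ C, Q.countP (pre (seg (lz (s.take p)) i (i + L))) ≤
      Q.countP (agr (s.take p) i (L + (s.take p).length)) + (Q.map (cl (s.take p) i L)).sum :=
    fun Q hQ => (hC Q hQ).count_le hh (by omega) fun τ g l1 l2 =>
      k ⟨Q, hQ, τ, g, l1, by rwa [e1, e2] at l2⟩
  replace k1 := k1.2
  have k3 : C.flatten.countP (pre (seg (lz (s.take p)) i (i + L))) ≤
      C.flatten.countP (agr (s.take p) i (L + (s.take p).length)) +
        (C.flatten.map (cl (s.take p) i L)).sum := by
    clear k1 k hp hC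
    induction C with
    | nil => simp
    | cons Q C ih =>
      have := k2 Q (by simp)
      have := ih fun Q k => k2 Q (by simp [k])
      simp only [List.flatten_cons, List.countP_append, List.map_append, List.sum_append]
      omega
  omega

end Vale.Agent.P333
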