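import Vale.Agent.P333.Theta

/-!
Splitting a balanced multiset of windows into cycles.
-/

namespace Vale.Agent.P333

open Function

/-- All ways to take one item out of a list. -/
def picks (P : List (List Str)) : List (List Str × List (List Str)) :=
  (List.range P.length).map fun i => (P.getD i [], P.take i ++ P.drop (i + 1))

lemma picks_perm {P : List (List Str)} {x : List Str × List (List Str)} (h : x ∈ picks P) :
    P.Perm (x.1 :: x.2) := by
  obtain ⟨i, hi, rfl⟩ := List.mem_map.1 h
  have k := List.mem_range.1 hi
  conv_lhs => rw [← List.take_append_drop i P, List.drop_eq_getElem_cons k]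
  rw [List.getD_eq_getElem _ _ k]
  exact List.perm_middle

lemma exists_picks {P : List (List Str)} {a : List Str} (h : a ∈ P) : ∃ x ∈ picks P, x.1 = a := by
  obtain ⟨i, hi, rfl⟩ := List.getElem_of_mem h
  exact ⟨_, List.mem_map_of_mem (List.mem_range.2 hi), List.getD_eq_getElem _ _ hi⟩

lemma headD_filter {α : Type} {l : List α} {f : α → Bool} (d : α) (h : ∃ x ∈ l, f x = true) :
    (l.filter f).headD d ∈ l ∧ f ((l.filter f).headD d) = true := by
  obtain ⟨x, h1, h2⟩ := h
  cases e : l.filter f with
  | nil => exact absurd (List.mem_filter.2 ⟨h1, h2⟩) (by simp [e])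
  | cons y L => exact List.mem_filter.1 (show y ∈ l.filter f from e ▸ List.mem_cons_self)

/-- The first window of a path. -/
def fs (π : List Str) : Str := π.headD []

/-- The tail of the last window of a path. -/
def lt (π : List Str) : Str := (π.reverse.headD []).tail

/-- The path with the longest last window. -/
def best (P : List (List Str)) : List Str × List (List Str) :=
  ((picks P).filter fun x => x.2.all fun π => decide ((lt π).length ≤ (lt x.1).length)).headD
    ([], [])

/-- A path that can follow. -/
def next (z : Str) (P : List (List Str)) : List Str × List (List Str) :=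
  ((picks P).filter fun x => pre z (fs x.1)).headD ([], [])

/-- Closing a path or joining two paths. -/
def join (st : List (List Str) × List (List Str)) : List (List Str) × List (List Str) :=
  bif st.1.isEmpty then st else
    bif pre (lt (best st.1).1) (fs (best st.1).1) then ((best st.1).2, (best st.1).1 :: st.2)
    else (((best st.1).1 ++ (next (lt (best st.1).1) (best st.1).2).1) ::
      (next (lt (best st.1).1) (best st.1).2).2, st.2)

/-- The cycles. -/
def cycles (Θ : List Str) : List (List Str) :=
  (Θ.foldl (fun st _ => join st) (Θ.map fun y => [y], [])).2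

/-- The invariant of path merging. -/
structure JInv (Θ : List Str) (st : List (List Str) × List (List Str)) : Prop where
  path : ∀ π ∈ st.1, π ≠ [] ∧ W (fs π) π (lt π)
  cyc : ∀ Q ∈ st.2, Cyc Q
  perm : (st.1.flatten ++ st.2.flatten).Perm Θ
  bal : ∀ z, st.1.countP (fun π => pre z (lt π)) ≤ st.1.countP fun π => pre z (fs π)

lemma best_spec {P : List (List Str)} (h : P ≠ []) : P.Perm ((best P).1 :: (best P).2) ∧
    ∀ π ∈ (best P).2, (lt π).length ≤ (lt (best P).1).length := by
  classical
  obtain ⟨a, h1, h2⟩ := Finset.exists_max_image P.toFinset (fun π => (lt π).length)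
    (by simpa using h)
  simp only [List.mem_toFinset] at h1 h2
  obtain ⟨x, h3, rfl⟩ := exists_picks h1
  have := headD_filter (l := picks P) ([], [])
    (f := fun x => x.2.all fun π => decide ((lt π).length ≤ (lt x.1).length))
    ⟨x, h3, by simpa using fun π k => h2 π ((picks_perm h3).mem_iff.2 (by simp [k]))⟩
  exact ⟨picks_perm this.1, fun π k => of_decide_eq_true (List.all_eq_true.1 this.2 π k)⟩

lemma bal_step {z f w : Str} {a b : ℕ} (h : z <+: f) (h1 : z.length < w.length → a = 0)
    (h2 : (a + if pre w z = true then 1 else 0) ≤ b + if pre w f = true then 1 else 0) :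
    a ≤ b := by
  simp only [pre_eq] at h2
  by_cases k1 : w <+: z
  · rw [if_pos k1, if_pos (k1.trans h)] at h2; omega
  · by_cases k2 : w <+: f
    · rw [h1 (by by_contra k; exact k1 (List.prefix_of_prefix_length_le k2 h (by omega)))]
      omega
    · rw [if_neg k1, if_neg k2] at h2; omega

lemma JInv.step {Θ : List Str} {st : List (List Str) × List (List Str)} (h : JInv Θ st) :
    JInv Θ (join st) ∧ (join st).1.length = st.1.length - 1 := by
  obtain ⟨P, C⟩ := st
  by_cases hP : P = []
  · subst hP
    exact ⟨h, rfl⟩
  obtain ⟨h1, h2⟩ := best_spec hP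
  have e0 : P.isEmpty = false := by simpa using hP
  simp only [join, e0, cond_false]
  generalize (best P).1 = π at *
  generalize (best P).2 = P' at *
  have hπ := h.path π (h1.mem_iff.2 (by simp))
  have hP' : ∀ π ∈ P', π ≠ [] ∧ W (fs π) π (lt π) := fun π k => h.path π (h1.mem_iff.2 (by simp [k]))
  have hz : ∀ w : Str, (lt π).length < w.length → P'.countP (fun π => pre w (lt π)) = 0 :=
    fun w k => List.countP_eq_zero.2 fun π' k1 k2 => by
      have := (pre_eq.1 k2).length_le
      have := h2 π' k1
      omega
  have hb := fun w => h.bal w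
  have hp := (h1.flatten.append_right C.flatten).symm.trans h.perm
  simp only [h1.countP_eq, List.countP_cons] at hb
  cases e : pre (lt π) (fs π) with
  | true =>
    refine ⟨⟨hP', fun Q k => ?_, ?_, fun w => bal_step (pre_eq.1 e) (hz w) (hb w)⟩,
      by simp [h1.length_eq]⟩
    · rcases List.mem_cons.1 k with rfl | k
      · exact Cyc.of_walk hπ.1 (hπ.2.mono_right (pre_eq.1 e))
      · exact h.cyc Q k
    · refine List.Perm.trans ?_ hp
      simp only [cond_true, List.flatten_cons, ← List.append_assoc]
      exact List.perm_append_comm.append_right _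
  | false =>
    have k1 : ∃ x ∈ picks P', pre (lt π) (fs x.1) = true := by
      have k := hb (lt π)
      rw [if_pos (by simp), if_neg (by simp [e])] at k
      obtain ⟨a, k2, k3⟩ := List.countP_pos_iff.1
        (show 0 < P'.countP fun π' => pre (lt π) (fs π') by omega)
      obtain ⟨x, k4, rfl⟩ := exists_picks k2
      exact ⟨x, k4, k3⟩
    obtain ⟨k2, k3⟩ := headD_filter ([], []) k1
    replace k2 := picks_perm k2
    simp only [cond_false, next]
    generalize ((picks P').filter fun x => pre (lt π) (fs x.1)).headD ([], []) = x at *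
    obtain ⟨π', P''⟩ := x
    simp only at k2 k3 ⊢
    have hπ' := hP' π' (k2.mem_iff.2 (by simp))
    have e1 : fs (π ++ π') = fs π := by
      cases π with
      | nil => exact absurd rfl hπ.1
      | cons => rfl
    have e2 : lt (π ++ π') = lt π' := by
      rw [lt, lt, List.reverse_append]
      cases k : π'.reverse with
      | nil => exact absurd (by simpa using k) hπ'.1
      | cons => rfl
    refine ⟨⟨fun a k => ?_, h.cyc, ?_, fun w => ?_⟩, by simp [h1.length_eq, k2.length_eq]⟩
    · rcases List.mem_cons.1 k with rfl | k
      · rw [e1, e2]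
        exact ⟨by simp [hπ.1], (hπ.2.mono_right (pre_eq.1 k3)).append hπ'.2⟩
      · exact hP' a (k2.mem_iff.2 (by simp [k]))
    · refine List.Perm.trans (List.Perm.append_right _ ?_) hp
      simp only [List.flatten_cons, List.append_assoc]
      exact (k2.flatten.symm).append_left _
    · have k4 := hb w
      have k5 := hz w
      simp only [k2.countP_eq, List.countP_cons, e1, e2] at k4 k5 ⊢
      exact bal_step (pre_eq.1 k3) k5 (by omega)

lemma cycles_spec {Θ : List Str} (h0 : ∀ y ∈ Θ, y ≠ [])
    (h : ∀ x, Θ.countP (fun y => pre x y.tail) ≤ Θ.countP (pre x)) :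
    (∀ Q ∈ cycles Θ, Cyc Q) ∧ (cycles Θ).flatten.Perm Θ := by
  have key : ∀ (l : List Str) st, JInv Θ st → st.1.length ≤ l.length →
      JInv Θ (l.foldl (fun st _ => join st) st) ∧ (l.foldl (fun st _ => join st) st).1 = [] := by
    intro l
    induction l with
    | nil => exact fun st k1 k2 => ⟨k1, by simpa using k2⟩
    | cons y l ih =>
      intro st k1 k2
      exact ih _ k1.step.1 (by rw [k1.step.2]; simpa using k2)
  have := key Θ (Θ.map fun y => [y], []) ⟨?_, by simp, ?_, fun z => ?_⟩ (by simp)
  · exact ⟨this.1.cyc, by simpa [this.2, cycles] using this.1.perm⟩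
  · intro π k
    obtain ⟨y, hy, rfl⟩ := List.mem_map.1 k
    exact ⟨by simp, List.prefix_rfl, h0 y hy, List.prefix_rfl⟩
  · simp [← List.flatMap_def]
  · simpa [List.countP_map, comp_def, lt, fs] using h z

end Vale.Agent.P333
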