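import Mathlib

/-!
The shortest common superstring problem: instances, binary codes, approximation algorithms.
Letters are natural numbers, so every finite alphabet is covered.
-/

namespace Vale.Agent.P333

/-- Code of a binary digit. -/
def codeBool (b : Bool) : List Bool :=
  if b then [true, true, false, false, false] else [true, false, true, false, false]

/-- Code of a list: each item is preceded by `true`, and `false` ends the list. -/
def codeList {α : Type} (f : α → List Bool) (l : List α) : List Bool :=
  l.flatMap (fun x => true :: f x) ++ [false]

/-- Code of a letter: the list of its binary digits. -/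
def codeNat (k : ℕ) : List Bool := codeList codeBool k.bits

/-- Code of a string. -/
def codeStr (s : List ℕ) : List Bool := codeList codeNat s

/-- Code of an instance. -/
def codeInst (S : List (List ℕ)) : List Bool := codeList codeStr S

/-- `T` contains every string of `S` as a contiguous substring. -/
def IsSuper (S : List (List ℕ)) (T : List ℕ) : Prop := ∀ s ∈ S, s <:+: T

/-- The minimum length of a common superstring. -/
noncomputable def OPT (S : List (List ℕ)) : ℕ := sInf {n | ∃ T, IsSuper S T ∧ T.length = n}

/-- There is a polynomial-time `ρ`-approximation. -/
def HasApprox (ρ : ℝ) : Prop :=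
  ∃ f : List (List ℕ) → List ℕ,
    (∃ M : Turing.TM2ComputableInPolyTime codeInst codeStr f, ∀ k, Finite (M.tm.Γ k)) ∧
      ∀ S, IsSuper S (f S) ∧ ((f S).length : ℝ) ≤ ρ * OPT S

/-- The infimum of the achievable approximation ratios. -/
noncomputable def rhoStar : ℝ := sInf {ρ | 1 ≤ ρ ∧ HasApprox ρ}

end Vale.Agent.P333
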