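import Vale.Agent.P333.Cover

/-!
Attaching the cycles to the main walk.
-/

namespace Vale.Agent.P333

open Function

/-- One step of the test for walks. -/
def chkStep (st : Str × Bool) (y : Str) : Str × Bool := (y.tail, st.2 && pre st.1 y && !y.isEmpty)

/-- Test for closed walks at the empty string. -/
def chk (L : List Str) : Bool :=
  (L.foldl chkStep ([], true)).2 && pre (L.foldl chkStep ([], true)).1 []

lemma chk_eq {L : List Str} : chk L = true ↔ W [] L [] := by
  have key : ∀ (L : List Str) u b, ((L.foldl chkStep (u, b)).2 = true ∧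
      (L.foldl chkStep (u, b)).1 <+: []) ↔ b = true ∧ W u L [] := by
    intro L
    induction L with
    | nil => simp
    | cons y L ih => intro u b; simp only [List.foldl_cons, chkStep, ih]; simp [and_assoc]
  simpa [chk] using key L [] true

/-- All valid insertions of a rotation of `Q` into `M`. -/
def merges (M Q : List Str) : List (List Str) :=
  ((List.range ([] :: M).length).flatMap fun i => (List.range ([] :: Q).length).map fun j =>
    M.take i ++ (Q.drop j ++ Q.take j) ++ M.drop i).filter chk

lemma merges_sound {M Q M' : List Str} (hM : W [] M []) (hQ : Cyc Q) (h : M' ∈ merges M Q) :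
    W [] M' [] ∧ M'.length = M.length + Q.length ∧ (∀ z, V [] M z → V [] M' z) ∧
      ∀ z, CV Q z → V [] M' z := by
  simp only [merges, List.mem_filter, List.mem_flatMap, List.mem_map, chk_eq] at h
  obtain ⟨⟨i, -, j, -, rfl⟩, h⟩ := h
  have hr : ∀ z, CV Q z → CV (Q.drop j ++ Q.take j) z := fun z k =>
    CV.rot (by rwa [List.take_append_drop])
  obtain ⟨z, k1, k2, k3⟩ := exists_common (by rwa [List.take_append_drop])
    (let ⟨z, k⟩ := hQ; (hr z k).cyc) h
  refine ⟨h, by simp; omega, fun w k => V.ins_left k1 k2 k3 (by rwa [List.take_append_drop]),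
    fun w k => V.ins_right k1 k2 k3 (hr w k)⟩

lemma merges_ne {M Q : List Str} {z : Str} (hM : V [] M z) (hQ : CV Q z) : merges M Q ≠ [] := by
  obtain ⟨A, B, rfl, h1, h2⟩ := hM
  obtain ⟨-, A', B', rfl, h3⟩ := hQ
  refine List.ne_nil_of_mem (a := A ++ (B' ++ A') ++ B) ?_
  simp only [merges, List.mem_filter, List.mem_flatMap, List.mem_map, chk_eq, List.mem_range]
  exact ⟨⟨A.length, by simp, A'.length, by simp, by simp⟩, (h1.append h3).append h2⟩

lemma headD_mem {α : Type} {l : List α} (d : α) (h : l ≠ []) : l.headD d ∈ l := by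
  cases l with
  | nil => exact absurd rfl h
  | cons => simp

/-- Absorbing one cycle if possible. -/
def absorb (st : List Str × List (List Str)) (Q : List Str) : List Str × List (List Str) :=
  bif (merges st.1 Q).isEmpty then (st.1, Q :: st.2) else ((merges st.1 Q).headD [], st.2)

lemma absorb_spec (f : List Str → Bool) (R : List (List Str)) : ∀ (M : List Str) K, W [] M [] →
    (∀ Q ∈ R, Cyc Q) → (∀ Q ∈ R, f Q = true → ∃ z, V [] M z ∧ CV Q z) →
    ∀ r, r = R.foldl absorb (M, K) → W [] r.1 [] ∧ (∀ z, V [] M z → V [] r.1 z) ∧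
      (∀ Q ∈ r.2, Q ∈ K ∨ Q ∈ R) ∧ (∀ Q ∈ K, Q ∈ r.2) ∧
      (∀ Q ∈ R, Q ∈ r.2 ∨ ∀ z, CV Q z → V [] r.1 z) ∧
      r.1.length + r.2.flatten.length = M.length + K.flatten.length + R.flatten.length ∧
      r.2.flatten.length + (R.filter f).flatten.length ≤ K.flatten.length + R.flatten.length ∧
      r.2.length + (R.filter f).length ≤ K.length + R.length := by
  induction R with
  | nil => rintro M K h - - _ rfl; simpa using h
  | cons Q R ih =>
    intro M K h1 h2 h3 r hr
    rw [List.foldl_cons, absorb] at hr
    by_cases hm : merges M Q = []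
    · have hf : f Q = false := by
        by_contra k
        obtain ⟨z, k1, k2⟩ := h3 Q (by simp) (by simpa using k)
        exact merges_ne k1 k2 hm
      simp only [hm, List.isEmpty_nil, cond_true] at hr
      obtain ⟨k1, k2, k3, k4, k5, k6, k7, k8⟩ := ih M (Q :: K) h1 (fun Q k => h2 Q (by simp [k]))
        (fun Q k => h3 Q (by simp [k])) r hr
      simp only [List.flatten_cons, List.length_append, List.length_cons, List.filter_cons, hf,
        List.mem_cons, forall_eq_or_imp] at *
      exact ⟨k1, k2, fun P k => by have := k3 P k; tauto, k4.2, ⟨Or.inl k4.1, k5⟩, by omega,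
        by simp only [Bool.false_eq_true, if_false]; omega,
        by simp only [Bool.false_eq_true, if_false]; omega⟩
    · have e : (merges M Q).isEmpty = false := by simpa using hm
      simp only [e, cond_false] at hr
      obtain ⟨l1, l2, l3, l4⟩ := merges_sound h1 (h2 Q (by simp)) (headD_mem [] hm)
      obtain ⟨k1, k2, k3, k4, k5, k6, k7, k8⟩ := ih _ K l1 (fun Q k => h2 Q (by simp [k]))
        (fun Q k k' => let ⟨z, a, b⟩ := h3 Q (by simp [k]) k'; ⟨z, l3 z a, b⟩) r hr
      simp only [List.flatten_cons, List.length_append, List.length_cons, List.filter_cons,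
        List.mem_cons, forall_eq_or_imp] at *
      refine ⟨k1, fun z k => k2 z (l3 z k), fun P k => by have := k3 P k; tauto, k4,
        ⟨Or.inr fun z k => k2 z (l4 z k), k5⟩, by omega, ?_, ?_⟩ <;> split_ifs <;>
        (try simp only [List.flatten_cons, List.length_append, List.length_cons]) <;> omega

/-- The state after inserting a bridge and absorbing cycles. -/
def bridge (st : List Str × List (List Str)) (G : List Str) : List Str × List (List Str) :=
  st.2.foldl absorb ((merges st.1 G).headD [], [])

/-- Using a bridge if it pays for itself. -/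
def attempt (st : List Str × List (List Str)) (G : List Str) : List Str × List (List Str) :=
  bif !(merges st.1 G).isEmpty &&
    decide ((bridge st G).1.length + 2 * (bridge st G).2.flatten.length ≤
      st.1.length + 2 * st.2.flatten.length) && decide ((bridge st G).2.length < st.2.length)
  then bridge st G else st

/-- The invariant of the main loop. -/
structure LInv (C : List (List Str)) (st : List Str × List (List Str)) : Prop where
  walk : W [] st.1 []
  sub : ∀ Q ∈ st.2, Q ∈ C
  abs : ∀ Q ∈ C, Q ∈ st.2 ∨ ∀ z, CV Q z → V [] st.1 z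
  pot : st.1.length + 2 * st.2.flatten.length ≤ 2 * C.flatten.length

lemma LInv.attempt {C : List (List Str)} (hC : ∀ Q ∈ C, Cyc Q) {st : List Str × List (List Str)}
    (h : LInv C st) {G : List Str} (hG : Cyc G) : LInv C (attempt st G) ∧
      (∀ z, V [] st.1 z → V [] (attempt st G).1 z) ∧
      (attempt st G = st ∨ (attempt st G).2.length < st.2.length) := by
  rw [P333.attempt]
  generalize e : (!(merges st.1 G).isEmpty &&
    decide ((bridge st G).1.length + 2 * (bridge st G).2.flatten.length ≤
      st.1.length + 2 * st.2.flatten.length) && decide ((bridge st G).2.length < st.2.length)) = c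
  cases c with
  | false => exact ⟨h, fun _ k => k, Or.inl rfl⟩
  | true =>
    simp only [Bool.and_eq_true, decide_eq_true_eq, Bool.not_eq_true', List.isEmpty_eq_false_iff]
      at e
    obtain ⟨l1, -, l3, -⟩ := merges_sound h.walk hG (headD_mem [] e.1.1)
    obtain ⟨k1, k2, k3, -, k5, -⟩ := absorb_spec (fun _ => false) st.2 _ [] l1
      (fun Q k => hC Q (h.sub Q k)) (by simp) (bridge st G) rfl
    refine ⟨⟨k1, fun Q k => h.sub Q (by simpa using k3 Q k), fun Q k => ?_,
      e.1.2.trans h.pot⟩, fun z k => k2 z (l3 z k), Or.inr e.2⟩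
    rcases h.abs Q k with k' | k'
    · exact k5 Q k'
    · exact Or.inr fun z a => k2 z (l3 z (k' z a))

lemma LInv.pays {C : List (List Str)} (hC : ∀ Q ∈ C, Cyc Q) {st : List Str × List (List Str)}
    (h : LInv C st) {G : List Str} (h1 : ∃ z, V [] st.1 z ∧ CV G z) {N : List (List Str)}
    (h2 : N.Nodup) (h3 : N ≠ []) (h4 : ∀ Q ∈ N, Q ∈ st.2 ∧ ∃ z, CV Q z ∧ CV G z)
    (h5 : G.length ≤ (N.map List.length).sum) : (P333.attempt st G).2.length < st.2.length := by
  classical
  obtain ⟨z, a1, a2⟩ := h1
  have hm := merges_ne a1 a2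
  obtain ⟨l1, l2, -, l4⟩ := merges_sound h.walk a2.cyc (headD_mem [] hm)
  obtain ⟨-, -, -, -, -, k6, k7, k8⟩ := absorb_spec (fun Q => decide (Q ∈ N)) st.2 _ [] l1
    (fun Q k => hC Q (h.sub Q k)) (fun Q _ k =>
      let ⟨z, a, b⟩ := (h4 Q (of_decide_eq_true k)).2; ⟨z, l4 z b, a⟩) (bridge st G) rfl
  obtain ⟨l, m1, m2⟩ := h2.subperm (l₂ := st.2.filter fun Q => decide (Q ∈ N))
    fun Q k => List.mem_filter.2 ⟨(h4 Q k).1, decide_eq_true k⟩
  have m3 := (m2.map List.length).sum_le_sum (by simp)
  have m4 := m2.length_le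
  have m5 := List.length_pos_iff.2 h3
  rw [(m1.map _).sum_eq, ← List.length_flatten (L := List.filter _ _)] at m3
  rw [m1.length_eq] at m4
  simp only [List.flatten_nil, List.length_nil] at k6 k7 k8
  have e : (merges st.1 G).isEmpty = false := by simpa using hm
  rw [P333.attempt, e, decide_eq_true (by omega), decide_eq_true (by omega)]
  simp only [Bool.not_false, Bool.and_self, cond_true]
  omega

/-- A piece of the periodic sequence. -/
def lin (U h : Str) (a n : ℕ) : Str := ((List.range U.length).map fun t => ln h (a + t)).take n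

/-- The bridge again. -/
def gamC (g : Str) (k : ℕ) : List Str := ((List.range g.length).map fun t => g.drop t).take k

lemma gamC_eq {g : Str} {k : ℕ} (h : k ≤ g.length) : gamC g k = gam g k := by
  rw [gamC, gam, ← List.map_take, List.take_range, min_eq_left h]

/-- The bridges on one string. -/
def candsOf (g : Str) : List (List Str) :=
  ((List.range (0 :: g).length).filter fun k => decide (0 < k) && pre (g.drop k) g).map (gamC g)

/-- The candidate bridges. -/
def cands (U : Str) (C : List (List Str)) : List (List Str) :=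
  C.flatMap fun Q => (List.range Q.length).flatMap fun a =>
    (List.range (0 :: U).length).flatMap fun n => candsOf (lin U (heads Q) a n)

lemma cands_cyc {U : Str} {C : List (List Str)} {G : List Str} (h : G ∈ cands U C) : Cyc G := by
  simp only [cands, candsOf, List.mem_flatMap, List.mem_map, List.mem_filter, List.mem_range,
    Bool.and_eq_true, decide_eq_true_eq, pre_eq, List.length_cons] at h
  obtain ⟨Q, -, a, -, n, -, k, ⟨h1, h2, h3⟩, rfl⟩ := h
  rw [gamC_eq (by omega)]
  exact (GV.cv h2 (by omega) h3 (Or.inr ⟨0, by omega, rfl⟩)).cyc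

lemma mem_cands {U : Str} {C : List (List Str)} {Q : List Str} (hQ : Q ∈ C) {τ : ℤ → ℕ}
    {g : ℤ → ℤ} (hS : St Q τ g) {A B : ℤ} {k : ℕ} (h0 : 0 < k) (h1 : (k : ℤ) ≤ B - A)
    (h2 : (seg τ A B).drop k <+: seg τ A B) (h3 : B - A ≤ U.length) :
    gam (seg τ A B) k ∈ cands U C := by
  obtain ⟨d, hd⟩ := hS.line
  have hq : (0 : ℤ) < Q.length := by have := hS.pos; omega
  have k1 := Int.emod_nonneg (A + d) hq.ne'
  have k2 := Int.emod_lt_of_pos (A + d) hq
  have e : lin U (heads Q) ((A + d) % Q.length).toNat (B - A).toNat = seg τ A B := by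
    rw [lin, seg, ← List.map_take, List.take_range, min_eq_left (by omega)]
    refine List.map_congr_left fun t _ => ?_
    rw [ln_eq, lz, hd, show (heads Q).length = Q.length by simp [heads], Nat.cast_add,
      Int.toNat_of_nonneg k1, Int.emod_add_emod, add_right_comm]
  simp only [cands, candsOf, List.mem_flatMap, List.mem_map, List.mem_filter, List.mem_range,
    Bool.and_eq_true, decide_eq_true_eq, pre_eq, List.length_cons]
  refine ⟨Q, hQ, ((A + d) % Q.length).toNat, by omega, (B - A).toNat, by omega, k, ?_⟩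
  rw [e]
  exact ⟨⟨by simp; omega, h0, h2⟩, gamC_eq (by simp; omega)⟩

lemma LInv.pass {C : List (List Str)} (hC : ∀ Q ∈ C, Cyc Q) (l : List (List Str)) :
    ∀ st, LInv C st → (∀ G ∈ l, Cyc G) → LInv C (l.foldl P333.attempt st) ∧
      (∀ z, V [] st.1 z → V [] (l.foldl P333.attempt st).1 z) ∧
      (l.foldl P333.attempt st).2.length ≤ st.2.length ∧
      ((∃ G ∈ l, (P333.attempt st G).2.length < st.2.length) →
        (l.foldl P333.attempt st).2.length < st.2.length) := by
  induction l with
  | nil => exact fun st h _ => ⟨h, fun _ k => k, le_rfl, by simp⟩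
  | cons G l ih =>
    intro st h hl
    obtain ⟨h1, h2, h3⟩ := h.attempt hC (hl G (by simp))
    obtain ⟨k1, k2, k3, k4⟩ := ih _ h1 fun G k => hl G (by simp [k])
    rw [List.foldl_cons]
    refine ⟨k1, fun z k => k2 z (h2 z k), ?_, ?_⟩
    · rcases h3 with e | e
      · rw [e] at k3 ⊢; exact k3
      · omega
    · rintro ⟨G', a, b⟩
      rcases h3 with e | e
      · rw [e] at k4 ⊢
        rcases List.mem_cons.1 a with rfl | a
        · rw [e] at b; omega
        · exact k4 ⟨G', a, b⟩
      · omega

/-- The main walk at the end. -/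
def final (C : List (List Str)) : List Str :=
  ((C.flatMap fun _ => cands (C.flatten.flatten ++ C.flatten.flatten) C).foldl attempt ([], C)).1

/-- The algorithm. -/
def alg (S : List Str) : Str := heads (final (cycles (theta (maxi S))))

lemma LInv.good {S : List Str} (hS : Free S) {C : List (List Str)} (hC : ∀ Q ∈ C, Cyc Q)
    (hp : C.flatten.Perm (theta S)) {st : List Str × List (List Str)} (h : LInv C st) {s : Str}
    (hs : s ∈ S) (h0 : s ≠ []) (h1 : ∀ z, V [] st.1 z → ¬ s <:+: z) :
    ∃ G ∈ cands (C.flatten.flatten ++ C.flatten.flatten) C,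
      (P333.attempt st G).2.length < st.2.length := by
  obtain ⟨K, hK, hsK⟩ := List.mem_flatten.1 (hp.mem_iff.2 (theta_mem hS hs h0))
  have hKc := hC K hK
  have hR : K ∈ st.2 := (h.abs K hK).resolve_right fun k =>
    h1 s (k s (hKc.of_mem hsK)) List.infix_rfl
  obtain ⟨m, hm, rfl⟩ := List.getElem_of_mem hsK
  have e : seg (fun i => lineOf K (i + m)) 0 ((fun i => stairOf K (i + m) - m) 0) = K[m] := by
    rw [seg_shift]
    simp only [sub_add_cancel, zero_add]
    rw [hKc.win_eq, win, ← Int.natCast_mod, Int.toNat_natCast, Nat.mod_eq_of_lt hm,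
      List.getD_eq_getElem _ _ hm]
  obtain ⟨Q0, a1, τ, g, a2, A, B, k, a3, a4, a5, ⟨z, a6, a7⟩, N, a8, a9, a10, a11, a12⟩ :=
    exists_good (m := C.flatten.flatten.length) h.sub (V.base h.walk)
      (fun Q k y k' => (List.infix_of_mem_flatten (List.mem_flatten.2 ⟨Q, k, k'⟩)).length_le)
      h.abs hR (hKc.st.shift m) (e ▸ h1) (exists_end hS hC hp (e ▸ hs))
  have hk : k ≤ (seg τ A B).length := by simp; omega
  refine ⟨_, mem_cands a1 a2 a3 a4 a5 ?_, h.pays hC ⟨z, a6, a7.cv a3 hk a5⟩ a8 a9
    (fun Q k => let ⟨b1, z, b2, b3⟩ := a10 Q k; ⟨b1, z, b2, b3.cv a3 hk a5⟩) (by simpa [gam])⟩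
  obtain ⟨l, m1, m2⟩ := a8.subperm (l₂ := st.2) fun Q k => (a10 Q k).1
  have m3 := (m2.map List.length).sum_le_sum (by simp)
  rw [(m1.map _).sum_eq, ← List.length_flatten (L := st.2)] at m3
  have m4 := h.pot
  have m5 : C.flatten.length ≤ C.flatten.flatten.length := by
    rw [List.length_flatten (L := C.flatten)]
    simpa only [List.length_map] using List.length_le_sum_of_one_le (C.flatten.map List.length) fun n hn => by
      obtain ⟨y, hy, rfl⟩ := List.mem_map.1 hn
      exact List.length_pos_iff.2 ((theta_spec hS).2.2 y (hp.mem_iff.1 hy)).1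
  rw [List.length_append]
  omega

lemma final_spec {S : List Str} (hS : Free S) {C : List (List Str)} (hC : ∀ Q ∈ C, Cyc Q)
    (hp : C.flatten.Perm (theta S)) : (final C).length ≤ 2 * (theta S).length ∧
      ∀ s ∈ S, s <:+: heads (final C) := by
  have key : ∀ (l : List (List Str)) st, LInv C st → ∀ s ∈ S, s ≠ [] →
      ((∃ z, V [] st.1 z ∧ s <:+: z) ∨ st.2.length ≤ l.length) → ∃ z, V []
        ((l.flatMap fun _ => cands (C.flatten.flatten ++ C.flatten.flatten) C).foldl
          attempt st).1 z ∧ s <:+: z := by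
    intro l
    induction l with
    | nil =>
      intro st h s hs h0 k
      refine k.elim id fun k => by_contra fun k1 => ?_
      obtain ⟨G, -, k2⟩ := h.good hS hC hp hs h0 fun z a b => k1 ⟨z, a, b⟩
      simp only [List.length_nil] at k
      omega
    | cons Q l ih =>
      intro st h s hs h0 k
      obtain ⟨k1, k2, k3, k4⟩ := LInv.pass hC _ st h fun G =>
        cands_cyc (U := C.flatten.flatten ++ C.flatten.flatten) (C := C)
      rw [List.flatMap_cons, List.foldl_append]
      refine ih _ k1 s hs h0 ?_
      by_cases k5 : ∃ z, V [] st.1 z ∧ s <:+: z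
      · exact Or.inl (let ⟨z, a, b⟩ := k5; ⟨z, k2 z a, b⟩)
      · have := k4 (h.good hS hC hp hs h0 fun z a b => k5 ⟨z, a, b⟩)
        have := k.resolve_left k5
        simp only [List.length_cons] at this
        exact Or.inr (by omega)
  have h0 : LInv C ([], C) := ⟨List.prefix_rfl, fun _ k => k, fun _ k => Or.inl k, by simp⟩
  refine ⟨?_, fun s hs => ?_⟩
  · have := (LInv.pass hC (C.flatMap fun _ => cands (C.flatten.flatten ++ C.flatten.flatten) C)
      _ h0 fun G k => let ⟨_, _, k⟩ := List.mem_flatMap.1 k; cands_cyc k).1.pot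
    rw [hp.length_eq] at this
    exact le_trans (Nat.le_add_right _ _) this
  · by_cases k : s = []
    · exact k ▸ List.nil_infix
    · obtain ⟨z, a, b⟩ := key C _ h0 s hs k (Or.inr le_rfl)
      exact b.trans a.sub_heads

theorem alg_spec (S : List Str) : (∀ s ∈ S, s <:+: alg S) ∧
    ∀ T, (∀ s ∈ S, s <:+: T) → (alg S).length ≤ 2 * T.length := by
  have hS := free_maxi S
  obtain ⟨h1, h2⟩ := cycles_spec (fun y hy => ((theta_spec hS).2.2 y hy).1) (theta_bal hS)
  obtain ⟨h3, h4⟩ := final_spec hS h1 h2
  refine ⟨fun s hs => let ⟨t, a, b⟩ := exists_maxi hs; b.trans (h4 t a), fun T hT => ?_⟩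
  have := (theta_spec hS).1 T fun s hs => hT s (mem_maxi.1 hs).1
  rw [alg, heads, List.length_map]
  omega

end Vale.Agent.P333
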