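import Vale.Agent.P333.Walk

/-!
Periodic lines, segments, and the staircase of a cycle.
-/

namespace Vale.Agent.P333

open Function

/-- The segment of a line between two positions. -/
def seg (ω : ℤ → ℕ) (a b : ℤ) : Str := (List.range (b - a).toNat).map fun t : ℕ => ω (a + t)

variable {ω τ : ℤ → ℕ} {a b c : ℤ}

@[simp] lemma length_seg : (seg ω a b).length = (b - a).toNat := by simp [seg]

lemma getElem?_seg (t : ℕ) : (seg ω a b)[t]? = if a + t < b then some (ω (a + t)) else none := by
  split_ifs with h
  · rw [seg, List.getElem?_map, List.getElem?_range (by omega)]; rfl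
  · exact List.getElem?_eq_none (by simp; omega)

lemma seg_congr (h : ∀ t, a ≤ t → t < b → τ t = ω t) : seg τ a b = seg ω a b := by
  refine List.ext_getElem? fun t => ?_
  rw [getElem?_seg, getElem?_seg]
  split_ifs with h1
  · rw [h _ (by omega) h1]
  · rfl

lemma seg_shift : seg (fun i => ω (i + c)) a b = seg ω (a + c) (b + c) := by
  refine List.ext_getElem? fun t => ?_
  rw [getElem?_seg, getElem?_seg, show a + t + c = a + c + t by ring]
  by_cases h : a + t < b
  · rw [if_pos h, if_pos (by omega)]
  · rw [if_neg h, if_neg (by omega)]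

lemma seg_per (h : Periodic ω c) : seg ω (a + c) (b + c) = seg ω a b := by
  rw [← seg_shift]; congr 1; exact funext h

lemma drop_seg (k : ℕ) : (seg ω a b).drop k = seg ω (a + k) b := by
  refine List.ext_getElem? fun t => ?_
  rw [List.getElem?_drop, getElem?_seg, getElem?_seg]
  simp only [Nat.cast_add, add_assoc]

lemma pre_iff {x y : Str} : x <+: y ↔ ∀ t < x.length, y[t]? = x[t]? := by
  rw [List.prefix_iff_getElem?]
  exact ⟨fun h t ht => by rw [h t ht, List.getElem?_eq_getElem ht],
    fun h t ht => by rw [h t ht, List.getElem?_eq_getElem ht]⟩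

lemma seg_pre_iff {y : Str} :
    seg ω a b <+: y ↔ ∀ t : ℕ, a + t < b → y[t]? = some (ω (a + t)) := by
  rw [pre_iff]
  refine ⟨fun h t ht => ?_, fun h t ht => ?_⟩
  · rw [h t (by simp; omega), getElem?_seg, if_pos ht]
  · have : a + t < b := by simp at ht; omega
    rw [h t this, getElem?_seg, if_pos this]

lemma seg_pre (h : b ≤ c) : seg ω a b <+: seg ω a c :=
  seg_pre_iff.2 fun t ht => by rw [getElem?_seg, if_pos (by omega)]

lemma seg_self : seg ω a a = [] := by simp [seg]

lemma seg_sub {a' b' : ℤ} (h : a ≤ a') (h' : b' ≤ b) : seg ω a' b' <:+: seg ω a b := by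
  refine (seg_pre h').isInfix.trans ?_
  rw [show a' = a + ((a' - a).toNat : ℕ) by omega, ← drop_seg]
  exact (List.drop_suffix _ _).isInfix

lemma per_mul {q : ℤ} (h : Periodic ω q) (n : ℤ) : Periodic ω (n * q) := by
  simpa using h.int_mul n

lemma eq_of_agree {q : ℤ} (hq : 0 < q) (h1 : Periodic τ q) (h2 : Periodic ω q)
    (h : ∀ t, a ≤ t → t < a + q → τ t = ω t) : τ = ω := by
  funext i
  have e : i = a + (i - a) % q + (i - a) / q * q := by
    have := Int.emod_add_ediv_mul (i - a) q
    omega
  have k1 := Int.emod_nonneg (i - a) hq.ne'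
  have k2 := Int.emod_lt_of_pos (i - a) hq
  rw [e, per_mul h1 _ _, per_mul h2 _ _]
  exact h _ (by omega) (by omega)

/-- A weak form of the theorem of Fine and Wilf. -/
lemma eq_of_agree2 {p q : ℤ} (hp : 0 < p) (hq : 0 < q) (h1 : Periodic τ q) (h2 : Periodic ω p)
    (h : ∀ t, a ≤ t → t < a + p + q → τ t = ω t) : τ = ω := by
  have h3 : (fun i => ω (i + q)) = ω :=
    eq_of_agree (a := a) hp (fun i => by rw [add_right_comm, h2]) h2 fun t k1 k2 => by
      rw [← h _ (by omega) (by omega), h1, h _ k1 (by omega)]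
  exact eq_of_agree (a := a) hq h1 (congrFun h3) fun t k1 k2 => h t k1 (by omega)

/-- The line `τ` and the staircase `g` of a cycle: the window at `i` ends at `g i`. -/
structure St (Q : List Str) (τ : ℤ → ℕ) (g : ℤ → ℤ) : Prop where
  pos : 0 < Q.length
  per : Periodic τ (Q.length : ℤ)
  mono : Monotone g
  lt : ∀ i, i < g i
  vtx : ∀ l r, g (l - 1) ≤ r → r ≤ g l → CV Q (seg τ l r)
  mem : ∀ i, seg τ i (g i) ∈ Q
  line : ∃ d : ℤ, ∀ i, τ i = (heads Q).getD ((i + d) % Q.length).toNat 0

lemma St.shift {Q : List Str} {g : ℤ → ℤ} (h : St Q τ g) (c : ℤ) :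
    St Q (fun i => τ (i + c)) fun i => g (i + c) - c where
  pos := h.pos
  per := fun i => by simp only; rw [add_right_comm, h.per]
  mono := fun i j hij => by have := h.mono (show i + c ≤ j + c by omega); simp only; omega
  lt := fun i => by have := h.lt (i + c); omega
  vtx := fun l r h1 h2 => by
    rw [seg_shift]
    exact h.vtx _ _ (by rw [show l + c - 1 = l - 1 + c by ring]; omega) (by omega)
  mem := fun i => by rw [seg_shift, sub_add_cancel]; exact h.mem _
  line := let ⟨d, hd⟩ := h.line; ⟨c + d, fun i => by rw [hd, add_assoc]⟩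

/-- The window at an integer position. -/
def win (Q : List Str) (i : ℤ) : Str := Q.getD (i % Q.length).toNat []

lemma endp_eq {X : List Str} (h : X ≠ []) (u : Str) :
    endp u X = (X.getD (X.length - 1) []).tail := by
  induction X generalizing u with
  | nil => exact absurd rfl h
  | cons y X ih =>
    cases X with
    | nil => rfl
    | cons x X => rw [endp, ih (by simp)]; simp

lemma Cyc.win_spec {Q : List Str} (h : Cyc Q) (l : ℤ) : win Q l ∈ Q ∧
    (win Q (l - 1)).tail <+: win Q l ∧
    ∀ z, (win Q (l - 1)).tail <+: z → z <+: win Q l → CV Q z := by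
  have hq : 0 < Q.length := List.length_pos_iff.2 h.ne
  have hq' : (0 : ℤ) < Q.length := by omega
  have k1 := Int.emod_nonneg l hq'.ne'
  have k2 := Int.emod_lt_of_pos l hq'
  obtain ⟨m, hm⟩ : ∃ m : ℕ, l % Q.length = m := ⟨_, (Int.toNat_of_nonneg k1).symm⟩
  have hmq : m < Q.length := by omega
  have e0 : win Q l = Q[m] := by simp [win, hm, hmq]
  have hX : Cyc (Q.drop m ++ Q.take m) := by
    obtain ⟨z, hz⟩ := h
    rw [← List.take_append_drop m Q] at hz
    exact hz.rot.cyc
  have e1 : Q.drop m ++ Q.take m = win Q l :: (Q.drop (m + 1) ++ Q.take m) := by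
    rw [e0, List.drop_eq_getElem_cons hmq]; rfl
  have e2 : ∀ u, endp u (Q.drop m ++ Q.take m) = (win Q (l - 1)).tail := fun u => by
    rw [endp_eq hX.ne, ← List.rotate_eq_drop_append_take hmq.le, List.getD_eq_getElem?_getD,
      List.getElem?_rotate (by simp; omega), win, List.getD_eq_getElem?_getD, List.length_rotate]
    congr 3
    have : (l - 1) % Q.length = ((Q.length - 1 + m : ℕ) : ℤ) % Q.length := by
      have e3 := Int.emod_add_ediv_mul l Q.length
      have e4 : ((Q.length - 1 + m : ℕ) : ℤ) = l - 1 + (1 - l / Q.length) * Q.length := by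
        rw [Nat.cast_add, Nat.cast_sub hq, ← hm]; push_cast; linarith
      rw [e4, Int.add_mul_emod_self_right]
    rw [this, ← Int.natCast_mod, Int.toNat_natCast]
  obtain ⟨u, hu⟩ := hX.walk
  have k3 := hu.endp_le
  have k4 := hu.to_endp
  rw [e2] at k3 k4
  rw [e1] at k4
  refine ⟨e0 ▸ List.getElem_mem _, k3.trans k4.1, fun z h1 h2 =>
    ⟨h.ne, Q.take m, Q.drop m, by simp, ?_⟩⟩
  rw [e1]
  exact ⟨h2, k4.2.1, k4.2.2.mono_right h1⟩

lemma Cyc.win_ne {Q : List Str} (h : Cyc Q) (l : ℤ) : win Q l ≠ [] :=
  let ⟨_, hu⟩ := h.walk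
  hu.ne_nil (h.win_spec l).1

/-- The line of a cycle. -/
def lineOf (Q : List Str) (i : ℤ) : ℕ := (win Q i).headD 0

/-- The staircase of a cycle. -/
def stairOf (Q : List Str) (i : ℤ) : ℤ := i + (win Q i).length

lemma Cyc.win_eq {Q : List Str} (h : Cyc Q) (i : ℤ) :
    seg (lineOf Q) i (stairOf Q i) = win Q i := by
  have key : ∀ (t : ℕ) (i : ℤ), t < (win Q i).length →
      (win Q i)[t]? = some (lineOf Q (i + t)) := by
    intro t
    induction t with
    | zero =>
      intro i hi
      have := h.win_ne i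
      cases e : win Q i with
      | nil => exact absurd e this
      | cons a y => simp [lineOf, e]
    | succ t ih =>
      intro i hi
      have k1 := (h.win_spec (i + 1)).2.1
      rw [add_sub_cancel_right] at k1
      have k2 := k1.length_le
      rw [List.length_tail] at k2
      rw [← List.getElem?_tail, ← pre_iff.1 k1 t (by simp; omega), ih _ (by omega)]
      congr 2; push_cast; ring
  refine List.IsPrefix.eq_of_length (seg_pre_iff.2 fun t ht => key t i ?_) (by simp [stairOf])
  simp only [stairOf] at ht; omega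

lemma Cyc.st {Q : List Str} (h : Cyc Q) : St Q (lineOf Q) (stairOf Q) where
  pos := List.length_pos_iff.2 h.ne
  per := fun i => by simp [lineOf, win]
  mono := monotone_int_of_le_succ fun i => by
    have k1 := (h.win_spec (i + 1)).2.1.length_le
    rw [add_sub_cancel_right, List.length_tail] at k1
    simp only [stairOf]; omega
  lt := fun i => by
    have := List.length_pos_iff.2 (h.win_ne i)
    simp only [stairOf]; omega
  vtx := fun l r h1 h2 => by
    refine (h.win_spec l).2.2 _ ?_ (h.win_eq l ▸ seg_pre h2)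
    rw [← h.win_eq, ← List.drop_one, drop_seg, show l - 1 + (1 : ℕ) = l by simp]
    exact seg_pre h1
  mem := fun i => h.win_eq i ▸ (h.win_spec i).1
  line := ⟨0, fun i => by
    rw [lineOf, win, heads, add_zero]
    exact (List.getD_map (f := fun y : Str => y.headD 0) _ []).symm⟩

end Vale.Agent.P333
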