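import Vale.Agent.P333.Seg

/-!
Bridges that pay for themselves: basic obstructions.
-/

namespace Vale.Agent.P333

open Function

/-- A bridge that touches the main walk and is paid for by remaining cycles that it touches. -/
def Good (C R : List (List Str)) (VM : Str → Prop) (m : ℕ) : Prop :=
  ∃ Q0 ∈ C, ∃ τ g, St Q0 τ g ∧ ∃ (A B : ℤ) (k : ℕ), 0 < k ∧ (k : ℤ) ≤ B - A ∧
    (seg τ A B).drop k <+: seg τ A B ∧ (∃ z, VM z ∧ GV (seg τ A B) k z) ∧
    ∃ N : List (List Str), N.Nodup ∧ N ≠ [] ∧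
      (∀ Q ∈ N, Q ∈ R ∧ ∃ z, CV Q z ∧ GV (seg τ A B) k z) ∧
      k ≤ (N.map List.length).sum ∧ B - A ≤ ((N.map List.length).sum : ℕ) + m

/-- An end of a chain that is not closed by a longer window. -/
structure End (ω : ℤ → ℕ) (p i j : ℤ) (τ : ℤ → ℕ) (g : ℤ → ℤ) : Prop where
  le : j ≤ g i
  ag : ∀ t, i ≤ t → t < j → τ t = ω t
  stop : ¬ (j + p ≤ g i ∧ ∀ t, i ≤ t → t < j + p → τ t = ω t)
  unc : ∀ α, α ≤ i → (∀ t, α ≤ t → t < j → τ t = ω t) → τ (α - 1) ≠ ω (α - 1) → j ≤ g (α - 1) →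
    ∀ t, i ≤ t → t < j + p → t < g (α - 1) → τ t = ω t

variable {C R : List (List Str)} {VM : Str → Prop} {m : ℕ} {ω τ : ℤ → ℕ} {p : ℤ} {g : ℤ → ℤ}
  {Q : List Str}

lemma End.shift {i j c : ℤ} (h : End ω p i j τ g) (hc : Periodic ω c) :
    End ω p (i - c) (j - c) (fun t => τ (t + c)) fun t => g (t + c) - c where
  le := by have := h.le; rw [sub_add_cancel]; omega
  ag := fun t h1 h2 => by rw [h.ag _ (by omega) (by omega), hc]
  stop := fun ⟨h1, h2⟩ => h.stop ⟨by rw [sub_add_cancel] at h1; omega, fun t k1 k2 => by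
    have := h2 (t - c) (by omega) (by omega)
    rw [sub_add_cancel] at this
    rw [this, hc.sub_eq]⟩
  unc := fun α h1 h2 h3 h4 t k1 k2 k3 => by
    have e : α - 1 + c = α + c - 1 := by ring
    rw [e] at h3 h4 k3
    rw [← hc (α - 1), e] at h3
    rw [h.unc (α + c) (by omega) (fun t l1 l2 => ?_) h3 (by omega) _ (by omega) (by omega)
      (by omega), hc]
    have := h2 (t - c) (by omega) (by omega)
    rw [sub_add_cancel] at this
    rw [this, hc.sub_eq]

/-- The maximal run around an end on a different line. -/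
lemma End.run {a b : ℤ} (h : End ω p a b τ g) (hQ : St Q τ g) (hp : 0 < p) (hω : Periodic ω p)
    (hab : a < b) (hne : τ ≠ ω) : ∃ α β, α ≤ a ∧ b ≤ β ∧ (∀ t, α ≤ t → t < β → τ t = ω t) ∧
      τ β ≠ ω β ∧ β - α < p + Q.length ∧ g (α - 1) ≤ β := by
  have hq : (0 : ℤ) < Q.length := by have := hQ.pos; omega
  have key : ∀ α β, (∀ t, α ≤ t → t < β → τ t = ω t) → β - α < p + Q.length := fun α β k => by
    by_contra k1
    exact hne (eq_of_agree2 (a := α) hp hq hQ.per hω fun t l1 l2 => k t l1 (by omega))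
  obtain ⟨α, h1, h2⟩ := Int.exists_least_of_bdd (P := fun α => ∀ t, α ≤ t → t < b → τ t = ω t)
    ⟨b - p - Q.length, fun α k => by have := key α b k; omega⟩ ⟨a, h.ag⟩
  obtain ⟨β, h3, h4⟩ := Int.exists_greatest_of_bdd
    (P := fun β => ∀ t, α ≤ t → t < β → τ t = ω t)
    ⟨α + p + Q.length, fun β k => by have := key α β k; omega⟩ ⟨b, h1⟩
  have k1 := h2 a h.ag
  have k2 := h4 b h1
  have k3 : τ β ≠ ω β := fun e => by
    have := h4 (β + 1) fun t l1 l2 => by
      rcases (show t < β ∨ t = β by omega) with l | rfl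
      · exact h3 t l1 l
      · exact e
    omega
  have k4 : τ (α - 1) ≠ ω (α - 1) := fun e => by
    have := h2 (α - 1) fun t l1 l2 => by
      rcases (show α ≤ t ∨ t = α - 1 by omega) with l | rfl
      · exact h1 t l l2
      · exact e
    omega
  refine ⟨α, β, k1, k2, h3, k3, key _ _ h3, ?_⟩
  by_contra k5
  have k6 := h.unc α k1 h1 k4 (by omega)
  have k7 := hQ.mono (show α - 1 ≤ a by omega)
  by_cases k8 : β < b + p
  · exact k3 (k6 β (by omega) k8 (by omega))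
  · exact h.stop ⟨by omega, fun t l1 l2 => h3 t (by omega) (by omega)⟩

lemma St.cross (hQ : St Q τ g) {α β : ℤ} (h : g (α - 1) ≤ β) :
    ∃ c, α ≤ c ∧ c ≤ β ∧ g (c - 1) ≤ β ∧ β ≤ g c := by
  obtain ⟨c, ⟨h1, h2⟩, h3⟩ := Int.exists_least_of_bdd (P := fun c => α ≤ c ∧ β ≤ g c)
    ⟨α, fun c k => k.1⟩ ⟨β, by have := hQ.lt (α - 1); omega, (hQ.lt β).le⟩
  have k : g (c - 1) ≤ β := by
    rcases (show c = α ∨ α ≤ c - 1 by omega) with rfl | k
    · exact h
    · by_contra k1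
      have := h3 (c - 1) ⟨k, by omega⟩
      omega
  exact ⟨c, h1, by have := hQ.lt (c - 1); omega, k, h2⟩

/-- The standing assumptions. -/
structure Ctx (C R : List (List Str)) (VM : Str → Prop) (m : ℕ) : Prop where
  sub : ∀ Q ∈ R, Q ∈ C
  nil : VM []
  bnd : ∀ Q ∈ C, ∀ y ∈ Q, y.length ≤ m
  bad : ¬ Good C R VM m

lemma Ctx.ground (h : Ctx C R VM m) (hQ : Q ∈ R) (hS : St Q τ g) {A B : ℤ} (hAB : A < B)
    {N : List (List Str)} (h1 : N.Nodup) (h2 : N ≠ [])
    (h3 : ∀ P ∈ N, P ∈ R ∧ ((∃ t ≤ B, CV P (seg τ A t)) ∨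
      ∃ t, A ≤ t ∧ t ≤ B ∧ CV P (seg τ t B))) : ((N.map List.length).sum : ℕ) < B - A := by
  by_contra h4
  have e : (seg τ A B).drop (B - A).toNat = [] := by simp
  refine h.bad ⟨Q, h.sub Q hQ, τ, g, hS, A, B, (B - A).toNat, by omega, by omega,
    e ▸ List.nil_prefix, ⟨[], h.nil, Or.inl ⟨e ▸ List.nil_prefix, List.nil_prefix⟩⟩, N, h1, h2,
    fun P hP => ⟨(h3 P hP).1, ?_⟩, by omega, by omega⟩
  rcases (h3 P hP).2 with ⟨t, k1, k2⟩ | ⟨t, k1, k2, k3⟩
  · exact ⟨_, k2, Or.inl ⟨e ▸ List.nil_prefix, seg_pre k1⟩⟩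
  · exact ⟨_, k3, Or.inr ⟨(t - A).toNat, by omega, by rw [drop_seg]; congr 1; omega⟩⟩

/-- Vertices of remaining cycles are long. -/
lemma Ctx.long (h : Ctx C R VM m) (hQ : Q ∈ R) (hS : St Q τ g) {l r : ℤ} (h1 : g (l - 1) ≤ r)
    (h2 : r ≤ g l) : (Q.length : ℤ) < r - l := by
  by_cases hl : l < r
  · simpa using h.ground hQ hS hl (N := [Q]) (by simp) (by simp)
      (by simpa using ⟨hQ, Or.inl ⟨r, le_rfl, hS.vtx l r h1 h2⟩⟩)
  · have k1 := hS.lt (l - 1)
    have k2 := hS.mono (show l - 1 - 1 ≤ l - 1 by omega)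
    have k3 := hS.pos
    have := h.ground hQ hS (show l - 1 < l by omega) (N := [Q]) (by simp) (by simp)
      (by simpa using ⟨hQ, Or.inl ⟨l, le_rfl, hS.vtx (l - 1) l (by omega) (by omega)⟩⟩)
    simp only [List.map_cons, List.map_nil, List.sum_cons, List.sum_nil] at this
    omega

/-- No vertex of an aligned remaining cycle is close to a point of the main walk. -/
lemma Ctx.nolink (h : Ctx C R VM m) (hQ : Q ∈ R) (hS : St Q ω g) (hp : 0 < p)
    (hω : Periodic ω p) (hpq : p ≤ Q.length) {a b l r : ℤ} (hM : VM (seg ω a b))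
    (h1 : g (l - 1) ≤ r) (h2 : r ≤ g l) (h3 : a - p ≤ l) (h4 : l ≤ a) (h5 : b - p ≤ r)
    (h6 : r ≤ b) : False := by
  have k1 := h.long hQ hS h1 h2
  have k2 := h.bnd Q (h.sub Q hQ) _ (hS.mem l)
  rw [length_seg] at k2
  have e : (seg ω l b).drop p.toNat = seg ω l (b - p) := by
    rw [drop_seg, ← seg_per hω (a := l), sub_add_cancel]; congr 1; omega
  refine h.bad ⟨Q, h.sub Q hQ, ω, g, hS, l, b, p.toNat, by omega, by omega,
    e ▸ seg_pre (by omega), ⟨_, hM, Or.inr ⟨(a - l).toNat, by omega, ?_⟩⟩, [Q], by simp, by simp,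
    fun P hP => ?_, by simp; omega, by simp; omega⟩
  · rw [drop_seg]; congr 1; omega
  · obtain rfl : P = Q := by simpa using hP
    exact ⟨hQ, _, hS.vtx l r h1 h2, Or.inl ⟨e ▸ seg_pre h5, seg_pre h6⟩⟩

lemma Ctx.dich (h : Ctx C R VM m) (hQ : Q ∈ R) (hS : St Q ω g) (hp : 0 < p)
    (hω : Periodic ω p) (hpq : p ≤ Q.length) {a b : ℤ} (hM : VM (seg ω a b)) :
    b < g (a - p - 1) ∨ g a < b - p := by
  by_contra k
  rw [not_or, not_lt, not_lt] at k
  obtain ⟨l, ⟨h1, h2⟩, h3⟩ := Int.exists_least_of_bdd (P := fun l => a - p ≤ l ∧ b - p ≤ g l)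
    ⟨a - p, fun c k => k.1⟩ ⟨a, by omega, k.2⟩
  have k1 := h3 a ⟨by omega, k.2⟩
  have k2 := hS.mono (show l - 1 ≤ l by omega)
  have k3 : g (l - 1) ≤ b := by
    rcases (show l = a - p ∨ a - p ≤ l - 1 by omega) with rfl | k4
    · exact k.1
    · by_contra k5
      have := h3 (l - 1) ⟨k4, by omega⟩
      omega
  exact h.nolink hQ hS hp hω hpq hM (l := l) (r := max (g (l - 1)) (b - p)) (le_max_left _ _)
    (max_le k2 h2) h1 k1 (le_max_right _ _) (max_le k3 (by omega))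

lemma Ctx.above (h : Ctx C R VM m) (hQ : Q ∈ R) (hS : St Q ω g) (hp : 0 < p)
    (hω : Periodic ω p) (hpq : p ≤ Q.length) {a b : ℤ} (hM : VM (seg ω a b))
    (hab : g a < b - p) (n : ℤ) : g (a + n * p) < b + n * p - p := by
  have hM' : ∀ n : ℤ, VM (seg ω (a + n * p) (b + n * p)) := fun n => by
    rwa [seg_per (per_mul hω n)]
  induction n using Int.induction_on with
  | zero => simpa using hab
  | succ n ih =>
    rcases h.dich hQ hS hp hω hpq (hM' (n + 1)) with k | k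
    · have := hS.mono (show a + (n + 1) * p - p - 1 ≤ a + n * p by linarith)
      linarith
    · exact k
  | pred n ih =>
    rcases h.dich hQ hS hp hω hpq (hM' (-n - 1)) with k | k
    · have := hS.mono (show a + (-n - 1) * p - p - 1 ≤ a + -n * p by linarith)
      linarith
    · exact k

end Vale.Agent.P333
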