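import Vale.Agent.P333.Count

/-!
The multiset of windows forced by the counting rules.
-/

namespace Vale.Agent.P333

open Function

/-- Test for substrings. -/
def inf (s t : Str) : Bool := (List.range (0 :: t).length).any fun i => pre s (t.drop i)

@[simp] lemma inf_eq {s t : Str} : inf s t = true ↔ s <:+: t := by
  simp only [inf, List.any_eq_true, List.mem_range, pre_eq, List.length_cons]
  refine ⟨fun ⟨i, _, h⟩ => h.isInfix.trans (List.drop_suffix _ _).isInfix, ?_⟩
  rintro ⟨A, B, rfl⟩
  exact ⟨A.length, by simp, by simp⟩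

/-- The strings that are not proper substrings of others. -/
def maxi (S : List Str) : List Str :=
  S.filter fun s => S.all fun t => !inf s t || decide (t.length ≤ s.length)

/-- No string is a proper substring of another one. -/
def Free (S : List Str) : Prop := ∀ s ∈ S, ∀ t ∈ S, s <:+: t → t.length ≤ s.length

lemma mem_maxi {S : List Str} {s : Str} :
    s ∈ maxi S ↔ s ∈ S ∧ ∀ t ∈ S, s <:+: t → t.length ≤ s.length := by
  simp only [maxi, List.mem_filter, List.all_eq_true, Bool.or_eq_true, Bool.not_eq_true',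
    decide_eq_true_eq, ← inf_eq]
  exact and_congr_right fun _ => forall₂_congr fun t _ => by cases inf s t <;> simp

lemma free_maxi (S : List Str) : Free (maxi S) := fun _ hs t ht =>
  (mem_maxi.1 hs).2 t (mem_maxi.1 ht).1

lemma exists_maxi {S : List Str} {s : Str} (hs : s ∈ S) : ∃ t ∈ maxi S, s <:+: t := by
  classical
  obtain ⟨t, h1, h2⟩ := Finset.exists_max_image (S.toFinset.filter fun t => s <:+: t) List.length
    ⟨s, by simp [hs]⟩
  simp only [Finset.mem_filter, List.mem_toFinset, and_imp] at h1 h2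
  exact ⟨t, mem_maxi.2 ⟨h1.1, fun t' k1 k2 => h2 t' k1 (h1.2.trans k2)⟩, h1.2⟩

/-- The rules for substrings of length `L + 1`: period word, position, substring. -/
def rulesAt (S : List Str) (L : ℕ) : List (Str × ℕ × Str) :=
  S.flatMap fun s => (List.range s.length).flatMap fun p =>
    ((List.range s.length).filter fun i =>
      decide (i + L < s.length) && agr (s.take (p + 1)) 0 s.length s).map fun i =>
        (s.take (p + 1), i, (s.drop i).take (L + 1))

/-- All rules, longest substrings first. -/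
def rules (S : List Str) : List (Str × ℕ × Str) :=
  (List.range S.flatten.length).reverse.flatMap (rulesAt S)

/-- Adding the missing copies of a substring. -/
def addRule (u : Str) (Θ : List Str) (r : Str × ℕ × Str) : List Str :=
  Θ ++ (u.take (req r Θ - Θ.countP (pre r.2.2))).map fun _ => r.2.2

/-- The windows. -/
def theta (S : List Str) : List Str := (rules S).foldl (addRule S.flatten) []

/-- Rules that come from a periodic input string. -/
def Valid (S : List Str) (r : Str × ℕ × Str) : Prop :=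
  ∃ s ∈ S, r.1 ≠ [] ∧ seg (lz r.1) 0 s.length = s ∧ r.2.1 + r.2.2.length ≤ s.length ∧
    r.2.2 ≠ [] ∧ seg (lz r.1) r.2.1 (r.2.1 + r.2.2.length) = r.2.2

lemma seg_eq_take_drop {ω : ℤ → ℕ} {s : Str} (e : seg ω 0 s.length = s) {i L : ℕ}
    (h : i + L ≤ s.length) : seg ω i (i + L) = (s.drop i).take L := by
  have h1 : seg ω i (i + L) <+: s.drop i := by
    rw [← e, drop_seg, zero_add]
    exact seg_pre (by omega)
  rw [List.prefix_iff_eq_take.1 h1]
  simp

lemma mem_rulesAt {S : List Str} {L : ℕ} {r : Str × ℕ × Str} (h : r ∈ rulesAt S L) :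
    r.2.2.length = L + 1 ∧ Valid S r := by
  simp only [rulesAt, List.mem_flatMap, List.mem_map, List.mem_filter, List.mem_range,
    Bool.and_eq_true, decide_eq_true_eq, agr_eq] at h
  obtain ⟨s, hs, p, hp, i, ⟨hi, h1, h2⟩, rfl⟩ := h
  have e : ((s.drop i).take (L + 1)).length = L + 1 := by simp; omega
  have e2 : seg (lz (s.take (p + 1))) 0 s.length = s := by
    simpa using h2.eq_of_length (by simp)
  refine ⟨e, s, hs, List.length_pos_iff.1 (by simp; omega), e2, by simp only [e]; omega,
    List.length_pos_iff.1 (by simp only [e]; omega), ?_⟩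
  simp only [e]
  exact seg_eq_take_drop e2 (by omega)

lemma rules_valid {S : List Str} {r : Str × ℕ × Str} (h : r ∈ rules S) : Valid S r :=
  let ⟨_, _, h⟩ := List.mem_flatMap.1 h
  (mem_rulesAt h).2

lemma rules_sorted (S : List Str) :
    (rules S).Pairwise fun r r' => r'.2.2.length ≤ r.2.2.length := by
  rw [rules, List.pairwise_flatMap]
  refine ⟨fun L _ => List.pairwise_of_forall_mem_list fun r hr r' hr' => ?_, ?_⟩
  · rw [(mem_rulesAt hr).1, (mem_rulesAt hr').1]
  · rw [List.pairwise_reverse]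
    refine List.pairwise_lt_range.imp fun h r hr r' hr' => ?_
    rw [(mem_rulesAt hr).1, (mem_rulesAt hr').1]
    omega

lemma Valid.sub {S : List Str} {r : Str × ℕ × Str} (h : Valid S r) :
    r.2.2 ≠ [] ∧ ∃ s ∈ S, r.2.2 <:+: s := by
  obtain ⟨s, hs, -, h2, h3, h4, h5⟩ := h
  refine ⟨h4, s, hs, ?_⟩
  rw [← h5, ← h2]
  exact seg_sub (by omega) (by omega)

lemma Valid.req_le {S : List Str} {r : Str × ℕ × Str} (h : Valid S r) (hS : Free S) {T : Str}
    (hT : ∀ s ∈ S, s <:+: T) {Θ : List Str} (hE : Emb T Θ) (hΘ : ∀ y ∈ Θ, ∃ s ∈ S, y <:+: s) :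
    req r Θ ≤ (occ T r.2.2).card := by
  obtain ⟨s, hs, h1, h2, h3, h4, h5⟩ := h
  refine max_le (hE.tails_le h4) ?_
  have := hE.chain_le (hT s hs) (fun y hy k => ?_) h1 (List.length_pos_iff.2 h4) h3 h2
  · rwa [h5] at this
  · obtain ⟨t, ht, k1⟩ := hΘ y hy
    exact k1.length_le.trans (hS s hs t ht (k.trans k1))

lemma agr_le {h y : Str} {a n : ℕ} (k : agr h a n y = true) : n ≤ y.length := by
  simp only [agr, Bool.and_eq_true, decide_eq_true_eq] at k
  exact k.1

lemma Valid.req_append {S : List Str} {r : Str × ℕ × Str} (h : Valid S r) (Θ : List Str)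
    {E : List Str} (hE : ∀ y ∈ E, y.length ≤ r.2.2.length) : req r (Θ ++ E) = req r Θ := by
  obtain ⟨s, hs, h1, h2, h3, h4, h5⟩ := h
  have k1 := List.length_pos_iff.2 h1
  have k2 := List.length_pos_iff.2 h4
  have e1 : E.countP (fun y => pre r.2.2 y.tail) = 0 := List.countP_eq_zero.2 fun y hy k => by
    have := (pre_eq.1 k).length_le
    have := hE y hy
    simp only [List.length_tail] at *
    omega
  have e2 : E.countP (agr r.1 r.2.1 (r.2.2.length + r.1.length)) = 0 :=
    List.countP_eq_zero.2 fun y hy k => by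
      have := agr_le k
      have := hE y hy
      omega
  have e3 : (E.map (cl r.1 r.2.1 r.2.2.length)).sum = 0 := List.sum_eq_zero fun n hn => by
    obtain ⟨y, hy, rfl⟩ := List.mem_map.1 hn
    refine List.countP_eq_zero.2 fun o _ k => ?_
    simp only [clb, Bool.and_eq_true] at k
    have := agr_le k.1.1
    have := hE y hy
    simp only [List.length_tail] at *
    omega
  simp [req, e1, e2, e3]

lemma flatten_super (S : List Str) : ∀ s ∈ S, s <:+: S.flatten := fun _ => List.infix_of_mem_flatten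

lemma fold_spec {S : List Str} (hS : Free S) (Rs : List (Str × ℕ × Str)) : ∀ Θ : List Str,
    (∀ r ∈ Rs, Valid S r) → (Rs.Pairwise fun r r' => r'.2.2.length ≤ r.2.2.length) →
    (∀ T, (∀ s ∈ S, s <:+: T) → Emb T Θ) → (∀ y ∈ Θ, ∃ s ∈ S, y <:+: s) →
    (∀ y ∈ Θ, ∀ r ∈ Rs, r.2.2.length ≤ y.length) →
    (∀ T, (∀ s ∈ S, s <:+: T) → Emb T (Rs.foldl (addRule S.flatten) Θ)) ∧
    (∀ r ∈ Rs, req r (Rs.foldl (addRule S.flatten) Θ) ≤
      (Rs.foldl (addRule S.flatten) Θ).countP (pre r.2.2)) ∧
    ∃ E, Rs.foldl (addRule S.flatten) Θ = Θ ++ E ∧ ∀ y ∈ E, ∃ r ∈ Rs, y = r.2.2 := by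
  induction Rs with
  | nil => exact fun Θ _ _ h _ _ => ⟨h, by simp, [], by simp, by simp⟩
  | cons r Rs ih =>
    intro Θ h1 h2 h3 h4 h5
    have hr := h1 r (by simp)
    rw [List.pairwise_cons] at h2
    obtain ⟨E1, e1, hE1, hl⟩ : ∃ E1, addRule S.flatten Θ r = Θ ++ E1 ∧ (∀ y ∈ E1, y = r.2.2) ∧
        E1.length = req r Θ - Θ.countP (pre r.2.2) := by
      refine ⟨_, rfl, fun y hy => let ⟨_, _, e⟩ := List.mem_map.1 hy; e.symm, ?_⟩
      have k1 := hr.req_le hS (flatten_super S) (h3 _ (flatten_super S)) h4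
      have k2 : (occ S.flatten r.2.2).card ≤ S.flatten.length :=
        (Finset.card_filter_le _ _).trans (by rw [Finset.card_range])
      rw [List.length_map, List.length_take]
      omega
    rw [List.foldl_cons, e1]
    obtain ⟨k1, k2, E, k3, k4⟩ := ih (Θ ++ E1) (fun r' k => h1 r' (by simp [k])) h2.2
      (fun T hT => (h3 T hT).add (fun y hy => h5 y hy r (by simp)) hE1 (by
        have := hr.req_le hS hT (h3 T hT) h4
        omega))
      (fun y hy => (List.mem_append.1 hy).elim (h4 y) fun k => hE1 y k ▸ hr.sub.2)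
      (fun y hy r' k => (List.mem_append.1 hy).elim (fun k' => h5 y k' r' (by simp [k]))
        fun k' => hE1 y k' ▸ h2.1 r' k)
    refine ⟨k1, fun r' k => ?_, E1 ++ E, by rw [k3, List.append_assoc], fun y hy => ?_⟩
    · rcases List.mem_cons.1 k with rfl | k
      · rw [k3, hr.req_append _ fun y hy => ?_, hr.req_append _ fun y hy => (hE1 y hy ▸ le_rfl),
          List.countP_append, List.countP_append,
          (List.countP_eq_length (l := E1)).2 fun y hy => by simp [hE1 y hy]]
        · omega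
        · obtain ⟨r'', k5, rfl⟩ := k4 y hy
          exact h2.1 _ k5
      · exact k2 r' k
    · rcases List.mem_append.1 hy with k | k
      · exact ⟨r, by simp, hE1 y k⟩
      · obtain ⟨r', k5, rfl⟩ := k4 y k
        exact ⟨r', by simp [k5], rfl⟩

lemma theta_spec {S : List Str} (hS : Free S) :
    (∀ T, (∀ s ∈ S, s <:+: T) → (theta S).length ≤ T.length) ∧
    (∀ r ∈ rules S, req r (theta S) ≤ (theta S).countP (pre r.2.2)) ∧
    ∀ y ∈ theta S, y ≠ [] ∧ ∃ s ∈ S, y <:+: s := by
  obtain ⟨h1, h2, E, h3, h4⟩ := fold_spec hS (rules S) [] (fun _ => rules_valid) (rules_sorted S)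
    (fun T _ => ⟨[], rfl, by simp, by simp⟩) (by simp) (by simp)
  refine ⟨fun T hT => (h1 T hT).length_le, h2, fun y hy => ?_⟩
  rw [theta, h3] at hy
  obtain ⟨r, hr, rfl⟩ := h4 y hy
  exact (rules_valid hr).sub

lemma mem_rules {S : List Str} {s : Str} (hs : s ∈ S) {p i L : ℕ} (hp : 0 < p)
    (hp' : p ≤ s.length) (hL : 0 < L) (hi : i + L ≤ s.length)
    (e : seg (lz (s.take p)) 0 s.length = s) : (s.take p, i, (s.drop i).take L) ∈ rules S := by
  have := (flatten_super S s hs).length_le
  obtain ⟨p, rfl⟩ : ∃ q, p = q + 1 := ⟨p - 1, by omega⟩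
  obtain ⟨L, rfl⟩ : ∃ q, L = q + 1 := ⟨L - 1, by omega⟩
  simp only [rules, rulesAt, List.mem_flatMap, List.mem_map, List.mem_filter, List.mem_range,
    Bool.and_eq_true, decide_eq_true_eq, agr_eq, List.mem_reverse]
  exact ⟨L, by omega, s, hs, p, by omega, i, ⟨by omega, by omega, by simp [e]⟩, rfl⟩

lemma lz_take {ω : ℤ → ℕ} {s : Str} (e : seg ω 0 s.length = s) {p : ℕ} (hp : 0 < p)
    (hp' : p ≤ s.length) (hω : Periodic ω (p : ℤ)) : lz (s.take p) = ω := by
  have h1 : (s.take p).length = p := by simp; omega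
  refine eq_of_agree (a := 0) (q := p) (by omega) (by simpa only [h1] using lz_per (s.take p)) hω
    fun t k1 k2 => ?_
  obtain ⟨t, rfl⟩ := Int.eq_ofNat_of_zero_le k1
  rw [← ln_eq, ln, h1, Nat.mod_eq_of_lt (by omega), List.getD_eq_getElem?_getD,
    List.getElem?_take_of_lt (by omega), ← e, getElem?_seg, if_pos (by omega)]
  simp

lemma seg_lz_self (s : Str) : seg (lz s) 0 s.length = s := by
  refine List.IsPrefix.eq_of_length (seg_pre_iff.2 fun t ht => ?_) (by simp)
  have k : t < s.length := by omega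
  rw [zero_add, ← ln_eq, ln, Nat.mod_eq_of_lt k, List.getD_eq_getElem _ _ k,
    List.getElem?_eq_getElem k]

lemma theta_sub {S : List Str} (hS : Free S) {s x : Str} (hs : s ∈ S) (hx : x ≠ [])
    (h : x <:+: s) : 0 < (theta S).countP (pre x) ∧
      (theta S).countP (fun y => pre x y.tail) ≤ (theta S).countP (pre x) := by
  obtain ⟨A, B, rfl⟩ := h
  have k := List.length_pos_iff.2 hx
  have := (theta_spec hS).2.1 _ (mem_rules hs (p := (A ++ x ++ B).length) (i := A.length)
    (L := x.length) (by simp; omega) le_rfl k (by simp) (by rw [List.take_length, seg_lz_self]))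
  simp only [req, List.append_assoc, List.drop_left, List.take_left, max_le_iff] at this
  exact ⟨by omega, this.1⟩

lemma theta_mem {S : List Str} (hS : Free S) {s : Str} (hs : s ∈ S) (h : s ≠ []) :
    s ∈ theta S := by
  obtain ⟨y, hy, k⟩ := List.countP_pos_iff.1 (theta_sub hS hs h List.infix_rfl).1
  obtain ⟨t, ht, k1⟩ := ((theta_spec hS).2.2 y hy).2
  have k2 := pre_eq.1 k
  rwa [k2.eq_of_length_le (k1.length_le.trans (hS s hs t ht (k2.isInfix.trans k1)))]

lemma theta_bal {S : List Str} (hS : Free S) (x : Str) :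
    (theta S).countP (fun y => pre x y.tail) ≤ (theta S).countP (pre x) := by
  by_cases hx : x = []
  · subst hx
    exact List.countP_mono_left fun _ _ _ => by simp
  rcases Nat.eq_zero_or_pos ((theta S).countP fun y => pre x y.tail) with h | h
  · omega
  obtain ⟨y, hy, k⟩ := List.countP_pos_iff.1 h
  obtain ⟨t, ht, k1⟩ := ((theta_spec hS).2.2 y hy).2
  exact (theta_sub hS ht hx
    (((pre_eq.1 k).isInfix.trans (List.tail_suffix _).isInfix).trans k1)).2

end Vale.Agent.P333
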