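import Vale.Agent.P333.Loop
import Vale.Agent.Lib.PCP.Base

/-!
The algorithm runs in polynomial time.
-/

namespace Vale.Agent.P333

open Function Vale.Agent.Lib.TM

variable {α β : Type} [Enc α] [Enc β] {e : ℕ}

@[fun_prop]
theorem ct_take {l : α → List β} {n : α → ℕ} (hn : CT e n) (hl : CT e l) :
    CT e fun a => (l a).take (n a) :=
  (CT.drop (hl.length.sub hn) hl.reverse).reverse.of_eq fun a => by
    rw [← List.reverse_take, List.reverse_reverse]

@[fun_prop]
theorem ct_pre {x y : α → Str} (hx : CT e x) (hy : CT e y) : CT e fun a => pre (x a) (y a) := by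
  have : CT e fun a => decide ((x a).length ≤ (y a).length) &&
      (List.range (x a).length).all fun t => (x a).getD t 0 == (y a).getD t 0 := by fun_prop
  refine this.of_eq fun a => ?_
  rw [Bool.eq_iff_iff, pre_eq, pre_iff]
  simp only [Bool.and_eq_true, decide_eq_true_eq, List.all_eq_true, List.mem_range, beq_iff_eq]
  refine ⟨fun ⟨h1, h2⟩ t ht => ?_, fun h => ⟨(pre_iff.2 h).length_le, fun t ht => ?_⟩⟩
  · have := h2 t ht
    rw [List.getD_eq_getElem _ _ ht, List.getD_eq_getElem _ _ (ht.trans_le h1)] at this
    rw [List.getElem?_eq_getElem ht, List.getElem?_eq_getElem (ht.trans_le h1), this]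
  · rw [List.getD_eq_getElem?_getD, List.getD_eq_getElem?_getD, h t ht]

@[fun_prop]
theorem ct_ln {h : α → Str} {t : α → ℕ} (hh : CT e h) (ht : CT e t) :
    CT e fun a => ln (h a) (t a) := by unfold ln; fun_prop

@[fun_prop]
theorem ct_agr {h y : α → Str} {i n : α → ℕ} (hh : CT e h) (hi : CT e i) (hn : CT e n)
    (hy : CT e y) : CT e fun a => agr (h a) (i a) (n a) (y a) := by unfold agr; fun_prop

@[fun_prop]
theorem ct_mis {h y : α → Str} {i n : α → ℕ} (hh : CT e h) (hi : CT e i) (hn : CT e n)
    (hy : CT e y) : CT e fun a => mis (h a) (i a) (n a) (y a) := by unfold mis; fun_prop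

@[fun_prop]
theorem ct_clb {h y : α → Str} {i n o : α → ℕ} (hh : CT e h) (hi : CT e i) (hn : CT e n)
    (hy : CT e y) (ho : CT e o) : CT e fun a => clb (h a) (i a) (n a) (y a) (o a) := by
  unfold clb; fun_prop

@[fun_prop]
theorem ct_cl {h y : α → Str} {i n : α → ℕ} (hh : CT e h) (hi : CT e i) (hn : CT e n)
    (hy : CT e y) : CT e fun a => cl (h a) (i a) (n a) (y a) := by unfold cl; fun_prop

@[fun_prop]
theorem ct_req {r : α → Str × ℕ × Str} {l : α → List Str} (hr : CT e r) (hl : CT e l) :
    CT e fun a => req (r a) (l a) := by unfold req; fun_prop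

@[fun_prop]
theorem ct_inf {x y : α → Str} (hx : CT e x) (hy : CT e y) : CT e fun a => inf (x a) (y a) := by
  unfold inf; fun_prop

@[fun_prop]
theorem ct_maxi {l : α → List Str} (hl : CT e l) : CT e fun a => maxi (l a) := by
  unfold maxi; fun_prop

@[fun_prop]
theorem ct_rulesAt {l : α → List Str} {n : α → ℕ} (hl : CT e l) (hn : CT e n) :
    CT e fun a => rulesAt (l a) (n a) := by unfold rulesAt; fun_prop

@[fun_prop]
theorem ct_rules {l : α → List Str} (hl : CT e l) : CT e fun a => rules (l a) := by
  unfold rules; fun_prop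

@[fun_prop]
theorem ct_addRule {u : α → Str} {l : α → List Str} {r : α → Str × ℕ × Str} (hu : CT e u)
    (hl : CT e l) (hr : CT e r) : CT e fun a => addRule (u a) (l a) (r a) := by
  unfold addRule; fun_prop

theorem ct_theta : CT e theta := by
  have h : CT e fun S : List Str => S.flatten := by fun_prop
  refine CT.foldl (g := fun S : List Str => addRule S.flatten)
    (G := fun p => sz p.1.flatten * (sz p + 1)) (by fun_prop) (CT.const _) (by fun_prop)
    ((h.comp CT.id.fst).size.mul (Bd.self.add (Bd.const 1))) fun S Θ r => ?_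
  have h1 := sz_append Θ ((S.flatten.take (req r Θ - Θ.countP (pre r.2.2))).map fun _ => r.2.2)
  have h2 := sz_list_le (l := (S.flatten.take (req r Θ - Θ.countP (pre r.2.2))).map
    fun _ => r.2.2) (B := sz (S, r)) fun x hx => by
      obtain ⟨_, -, rfl⟩ := List.mem_map.1 hx
      rw [sz_pair, sz_prod r, sz_prod r.2]; omega
  have h3 : ((S.flatten.take (req r Θ - Θ.countP (pre r.2.2))).map fun _ => r.2.2).length ≤
      sz S.flatten := by
    rw [List.length_map]
    exact (List.length_take_le' _ _).trans (length_lt_sz _).le
  have h4 := Nat.mul_le_mul_right (sz (S, r) + 1) h3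
  simp only [addRule]
  omega

@[fun_prop]
theorem ct_picks {l : α → List (List Str)} (hl : CT e l) : CT e fun a => picks (l a) := by
  unfold picks; fun_prop

@[fun_prop]
theorem ct_fs {l : α → List Str} (hl : CT e l) : CT e fun a => fs (l a) := by
  unfold fs; fun_prop

@[fun_prop]
theorem ct_lt {l : α → List Str} (hl : CT e l) : CT e fun a => lt (l a) := by
  unfold lt; fun_prop

@[fun_prop]
theorem ct_best {l : α → List (List Str)} (hl : CT e l) : CT e fun a => best (l a) := by
  unfold best; fun_prop

@[fun_prop]
theorem ct_next {z : α → Str} {l : α → List (List Str)} (hz : CT e z) (hl : CT e l) :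
    CT e fun a => next (z a) (l a) := by unfold next; fun_prop

@[fun_prop]
theorem ct_join {s : α → List (List Str) × List (List Str)} (hs : CT e s) :
    CT e fun a => join (s a) := by unfold join; fun_prop

lemma sz_perm {l l' : List β} (h : l.Perm l') : sz l = sz l' := by
  induction h with
  | nil => rfl
  | cons _ _ ih => simp [ih]
  | swap => simp only [sz_cons]; omega
  | trans _ _ h1 h2 => exact h1.trans h2

lemma headD_or {γ : Type} (l : List γ) (d : γ) : l.headD d ∈ l ∨ l.headD d = d := by
  cases l <;> simp

lemma sz_pick (P : List (List Str)) (f : List Str × List (List Str) → Bool) :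
    sz (((picks P).filter f).headD ([], [])).1 + sz (((picks P).filter f).headD ([], [])).2 ≤
      sz P + 1 := by
  rcases headD_or ((picks P).filter f) ([], []) with h | h
  · have := sz_perm (picks_perm (List.mem_filter.1 h).1)
    rw [sz_cons] at this
    omega
  · have := sz_pos P
    simp only [h, sz_nil]
    omega

lemma sz_join (s : List (List Str) × List (List Str)) : sz (join s) ≤ sz s + 3 := by
  have h1 : sz (best s.1).1 + sz (best s.1).2 ≤ sz s.1 + 1 := sz_pick _ _
  have h2 : sz (next (lt (best s.1).1) (best s.1).2).1 +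
    sz (next (lt (best s.1).1) (best s.1).2).2 ≤ sz (best s.1).2 + 1 := sz_pick _ _
  have h3 := sz_append (best s.1).1 (next (lt (best s.1).1) (best s.1).2).1
  have h4 := sz_prod s
  unfold join
  cases s.1.isEmpty
  · cases pre (lt (best s.1).1) (fs (best s.1).1) <;>
      simp only [cond_true, cond_false, sz_pair, sz_cons] <;> omega
  · simp only [cond_true]; omega

theorem ct_cycles : CT e cycles :=
  (CT.foldl (g := fun (_ : List Str) st (_ : Str) => join st) (G := fun _ => 3)
    (init := fun Θ => (Θ.map fun y => [y], [])) (by fun_prop) (by fun_prop) CT.id (Bd.const 3)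
    fun _ s _ => sz_join s).snd

@[fun_prop]
theorem ct_chk {l : α → List Str} (hl : CT e l) : CT e fun a => chk (l a) := by
  have h : CT e fun a => (l a).foldl chkStep ([], true) :=
    CT.foldl (g := fun _ => chkStep) (G := fun p => sz p) (by unfold chkStep; fun_prop)
      (CT.const _) hl Bd.self fun a s x => by
        have := sz_tail x
        simp only [chkStep, sz_pair, sz_prod s, sz_bool]
        omega
  unfold chk
  fun_prop

@[fun_prop]
theorem ct_merges {l m : α → List Str} (hl : CT e l) (hm : CT e m) :
    CT e fun a => merges (l a) (m a) := by unfold merges; fun_prop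

@[fun_prop]
theorem ct_absorb {s : α → List Str × List (List Str)} {m : α → List Str} (hs : CT e s)
    (hm : CT e m) : CT e fun a => absorb (s a) (m a) := by unfold absorb; fun_prop

lemma sz_merges (M Q : List Str) : sz ((merges M Q).headD []) ≤ sz M + sz Q := by
  rcases headD_or (merges M Q) [] with h | h
  · simp only [merges, List.mem_filter, List.mem_flatMap, List.mem_map] at h
    obtain ⟨⟨i, -, j, -, h⟩, -⟩ := h
    have h1 := sz_append (M.take i) (M.drop i)
    have h2 := sz_append (Q.take j) (Q.drop j)
    have h3 := sz_append (Q.drop j) (Q.take j)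
    have h4 := sz_append (M.take i) (Q.drop j ++ Q.take j)
    have h5 := sz_append (M.take i ++ (Q.drop j ++ Q.take j)) (M.drop i)
    rw [List.take_append_drop] at h1 h2
    rw [merges, ← h]
    omega
  · have := sz_pos M
    rw [h, sz_nil]
    omega

lemma sz_absorb (s : List Str × List (List Str)) (Q : List Str) :
    sz (absorb s Q) ≤ sz s + (sz Q + 1) := by
  have h1 := sz_merges s.1 Q
  have h2 := sz_prod s
  unfold absorb
  cases (merges s.1 Q).isEmpty <;> simp only [cond_true, cond_false, sz_pair, sz_cons] <;> omega

@[fun_prop]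
theorem ct_bridge {s : α → List Str × List (List Str)} {m : α → List Str} (hs : CT e s)
    (hm : CT e m) : CT e fun a => bridge (s a) (m a) :=
  CT.foldl (g := fun _ => absorb) (G := fun p => sz p) (by fun_prop) (by fun_prop) hs.snd Bd.self
    fun a s x => (sz_absorb s x).trans (by rw [sz_pair a x]; omega)

@[fun_prop]
theorem ct_attempt {s : α → List Str × List (List Str)} {m : α → List Str} (hs : CT e s)
    (hm : CT e m) : CT e fun a => attempt (s a) (m a) := by unfold attempt; fun_prop

lemma sz_fold (R : List (List Str)) : ∀ s, sz (R.foldl absorb s) ≤ sz s + sz R := by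
  induction R with
  | nil => simp
  | cons Q R ih =>
    intro s
    have := ih (absorb s Q)
    have := sz_absorb s Q
    simp only [List.foldl_cons, sz_cons]
    omega

lemma sz_attempt (s : List Str × List (List Str)) (G : List Str) :
    sz (attempt s G) ≤ sz s + (sz G + 1) := by
  have h1 : sz (bridge s G) ≤ _ := sz_fold _ _
  have h2 := sz_merges s.1 G
  have h3 := sz_prod s
  rw [sz_pair ((merges s.1 G).headD []), sz_nil] at h1
  unfold attempt
  generalize (_ && _ && _ : Bool) = c
  cases c <;> simp only [cond_true, cond_false] <;> omega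

@[fun_prop]
theorem ct_heads {l : α → List Str} (hl : CT e l) : CT e fun a => heads (l a) := by
  unfold heads; fun_prop

@[fun_prop]
theorem ct_lin {u h : α → Str} {i n : α → ℕ} (hu : CT e u) (hh : CT e h) (hi : CT e i)
    (hn : CT e n) : CT e fun a => lin (u a) (h a) (i a) (n a) := by unfold lin; fun_prop

@[fun_prop]
theorem ct_gamC {g : α → Str} {n : α → ℕ} (hg : CT e g) (hn : CT e n) :
    CT e fun a => gamC (g a) (n a) := by unfold gamC; fun_prop

@[fun_prop]
theorem ct_candsOf {g : α → Str} (hg : CT e g) : CT e fun a => candsOf (g a) := by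
  unfold candsOf; fun_prop

@[fun_prop]
theorem ct_cands {u : α → Str} {l : α → List (List Str)} (hu : CT e u) (hl : CT e l) :
    CT e fun a => cands (u a) (l a) := by unfold cands; fun_prop

theorem ct_final : CT e final :=
  (CT.foldl (g := fun _ : List (List Str) => attempt) (G := fun p => sz p)
    (init := fun C => ([], C))
    (l := fun C => C.flatMap fun _ => cands (C.flatten.flatten ++ C.flatten.flatten) C)
    (by fun_prop) (by fun_prop) (by fun_prop) Bd.self
    fun a s x => (sz_attempt s x).trans (by rw [sz_pair a x]; omega)).fst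

theorem ct_alg : CT e alg :=
  ct_heads (ct_final.comp (ct_cycles.comp (ct_theta.comp (ct_maxi CT.id))))

end Vale.Agent.P333
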