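import Mathlib

/-!
Walks of windows. A window is a nonempty string; in a walk the tail of each window is an initial
segment of the next window.
-/

namespace Vale.Agent.P333

/-- Strings. -/
abbrev Str := List ℕ

/-- Walks from `u` to `v`. -/
def W : Str → List Str → Str → Prop
  | u, [], v => u <+: v
  | u, y :: L, v => u <+: y ∧ y ≠ [] ∧ W y.tail L v

@[simp] lemma W_nil {u v : Str} : W u [] v ↔ u <+: v := Iff.rfl

@[simp] lemma W_cons {u v y : Str} {L : List Str} :
    W u (y :: L) v ↔ u <+: y ∧ y ≠ [] ∧ W y.tail L v := Iff.rfl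

lemma W.mono_left {u u' v : Str} {L : List Str} (h : W u L v) (h' : u' <+: u) : W u' L v := by
  cases L with
  | nil => exact h'.trans h
  | cons y L => exact ⟨h'.trans h.1, h.2⟩

lemma W.mono_right {u v v' : Str} {L : List Str} (h : W u L v) (h' : v <+: v') : W u L v' := by
  induction L generalizing u with
  | nil => exact List.IsPrefix.trans h h'
  | cons y L ih => exact ⟨h.1, h.2.1, ih h.2.2⟩

lemma W_append {u v : Str} {A B : List Str} : W u (A ++ B) v ↔ ∃ z, W u A z ∧ W z B v := by
  induction A generalizing u with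
  | nil => exact ⟨fun h => ⟨u, List.prefix_rfl, h⟩, fun ⟨_, h1, h2⟩ => h2.mono_left h1⟩
  | cons y A ih =>
    simp only [List.cons_append, W_cons, ih]
    exact ⟨fun ⟨h1, h2, z, h3, h4⟩ => ⟨z, ⟨h1, h2, h3⟩, h4⟩,
      fun ⟨z, ⟨h1, h2, h3⟩, h4⟩ => ⟨h1, h2, z, h3, h4⟩⟩

lemma W.append {u z v : Str} {A B : List Str} (h : W u A z) (h' : W z B v) : W u (A ++ B) v :=
  W_append.2 ⟨z, h, h'⟩

lemma W.ne_nil {u v y : Str} {L : List Str} (h : W u L v) (hy : y ∈ L) : y ≠ [] := by
  induction L generalizing u with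
  | nil => simp at hy
  | cons x L ih =>
    rcases List.mem_cons.1 hy with rfl | hy
    · exact h.2.1
    · exact ih h.2.2 hy

lemma W.cross {w z v v' : Str} {C : List Str} (hC : C ≠ []) (h : W w C v) (h' : W z C v') :
    W w C v' := by
  cases C with
  | nil => exact absurd rfl hC
  | cons y C => exact ⟨h.1, h'.2⟩

lemma W.comp {w z v : Str} {B : List Str} (h : W w B v) (h' : W z B v) : w <+: z ∨ z <+: w := by
  cases B with
  | nil => exact List.prefix_or_prefix_of_prefix h h'
  | cons y B => exact List.prefix_or_prefix_of_prefix h.1 h'.1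

/-- Vertices of the closed walk `M` based at `u`. -/
def V (u : Str) (M : List Str) (z : Str) : Prop := ∃ A B, M = A ++ B ∧ W u A z ∧ W z B u

/-- Vertices of a cycle. -/
def CV (Q : List Str) (z : Str) : Prop := Q ≠ [] ∧ ∃ A B, Q = A ++ B ∧ W z (B ++ A) z

/-- Cycles. -/
def Cyc (Q : List Str) : Prop := ∃ z, CV Q z

lemma V.walk {u z : Str} {M : List Str} (h : V u M z) : W u M u := by
  obtain ⟨A, B, rfl, h1, h2⟩ := h
  exact h1.append h2

lemma V.base {u : Str} {M : List Str} (h : W u M u) : V u M u :=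
  ⟨[], M, rfl, List.prefix_rfl, h⟩

lemma V.of_mem {u y : Str} {M : List Str} (h : W u M u) (hy : y ∈ M) : V u M y := by
  obtain ⟨A, B, rfl⟩ := List.append_of_mem hy
  obtain ⟨z, h1, h2⟩ := W_append.1 h
  exact ⟨A, y :: B, rfl, h1.mono_right h2.1, List.prefix_rfl, h2.2⟩

lemma CV.cyc {Q : List Str} {z : Str} (h : CV Q z) : Cyc Q := ⟨z, h⟩

lemma Cyc.ne {Q : List Str} (h : Cyc Q) : Q ≠ [] := let ⟨_, h⟩ := h; h.1

lemma Cyc.walk {Q : List Str} (h : Cyc Q) : ∃ u, W u Q u := by
  obtain ⟨z, -, A, B, rfl, h⟩ := h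
  obtain ⟨t, h1, h2⟩ := W_append.1 h
  exact ⟨t, h2.append h1⟩

lemma CV.of_V {u z : Str} {Q : List Str} (hQ : Q ≠ []) (h : V u Q z) : CV Q z := by
  obtain ⟨A, B, rfl, h1, h2⟩ := h
  exact ⟨hQ, A, B, rfl, h2.append h1⟩

lemma Cyc.of_walk {u : Str} {Q : List Str} (hQ : Q ≠ []) (h : W u Q u) : Cyc Q :=
  (CV.of_V hQ (V.base h)).cyc

lemma Cyc.of_mem {Q : List Str} (h : Cyc Q) {y : Str} (hy : y ∈ Q) : CV Q y :=
  let ⟨_, h'⟩ := h.walk
  CV.of_V h.ne (V.of_mem h' hy)

lemma CV.rot {A B : List Str} {z : Str} (h : CV (A ++ B) z) : CV (B ++ A) z := by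
  obtain ⟨h0, A', B', e, h⟩ := h
  refine ⟨by simpa [or_comm, -not_and, not_and_or] using h0, ?_⟩
  rcases List.append_eq_append_iff.1 e with ⟨C, rfl, rfl⟩ | ⟨C, rfl, rfl⟩
  · exact ⟨C, B' ++ A, by simp, by simpa using h⟩
  · exact ⟨B ++ A', C, by simp, by simpa using h⟩

/-- Inserting a closed walk keeps the old vertices. -/
lemma V.ins_left {u z w : Str} {A B X : List Str} (hA : W u A z) (hX : W z X z) (hB : W z B u)
    (h : V u (A ++ B) w) : V u (A ++ X ++ B) w := by
  have key : W u A w → W w B u → V u (A ++ X ++ B) w := fun h1 h2 => by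
    rcases h2.comp hB with h | h
    · exact ⟨A, X ++ B, by simp, h1, (hX.append hB).mono_left h⟩
    · exact ⟨A ++ X, B, rfl, (hA.append hX).mono_right h, h2⟩
  obtain ⟨A', B', e, h1, h2⟩ := h
  rcases List.append_eq_append_iff.1 e with ⟨C, rfl, rfl⟩ | ⟨C, rfl, rfl⟩
  · by_cases hC : C = []
    · subst hC
      exact key (by simpa using h1) (by simpa using h2)
    · obtain ⟨t, -, k2⟩ := W_append.1 h1
      obtain ⟨t', k3, -⟩ := W_append.1 hB
      exact ⟨A ++ X ++ C, B', by simp, (hA.append hX).append (k3.cross hC k2), h2⟩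
  · by_cases hC : C = []
    · subst hC
      exact key (by simpa using h1) (by simpa using h2)
    · obtain ⟨t, k1, -⟩ := W_append.1 h2
      obtain ⟨t', -, k3⟩ := W_append.1 hA
      exact ⟨A', C ++ X ++ B, by simp, h1, ((k1.cross hC k3).append hX).append hB⟩

/-- Inserting a closed walk adds its vertices. -/
lemma V.ins_right {u z w : Str} {A B X : List Str} (hA : W u A z) (hX : W z X z) (hB : W z B u)
    (h : CV X w) : V u (A ++ X ++ B) w := by
  have key : X ≠ [] → W w X w → V u (A ++ X ++ B) w := fun h0 h1 => by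
    have h2 : W w X z := h1.cross h0 hX
    have h3 : W z X w := hX.cross h0 h1
    rcases h2.comp hX with h | h
    · exact ⟨A ++ X, B, rfl, hA.append h3, hB.mono_left h⟩
    · exact ⟨A, X ++ B, by simp, hA.mono_right h, h2.append hB⟩
  obtain ⟨h0, A', B', rfl, h⟩ := h
  by_cases hA' : A' = []
  · subst hA'
    exact key h0 (by simpa using h)
  by_cases hB' : B' = []
  · subst hB'
    exact key h0 (by simpa using h)
  obtain ⟨t, k1, k2⟩ := W_append.1 hX
  obtain ⟨t', k3, k4⟩ := W_append.1 h
  exact ⟨A ++ A', B' ++ B, by simp, hA.append (k1.cross hA' k4),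
    (k3.cross hB' k2).append hB⟩

/-- The tail of the last window. -/
def endp : Str → List Str → Str
  | u, [] => u
  | _, y :: L => endp y.tail L

lemma W.endp_le {u v : Str} {L : List Str} (h : W u L v) : endp u L <+: v := by
  induction L generalizing u with
  | nil => exact h
  | cons y L ih => exact ih h.2.2

lemma W.to_endp {u v : Str} {L : List Str} (h : W u L v) : W u L (endp u L) := by
  induction L generalizing u with
  | nil => exact List.prefix_rfl
  | cons y L ih => exact ⟨h.1, h.2.1, ih h.2.2⟩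

/-- A valid insertion of a cycle happens at a common vertex. -/
lemma exists_common {u : Str} {A B X : List Str} (hM : W u (A ++ B) u) (hX : Cyc X)
    (h : W u (A ++ X ++ B) u) : ∃ z, W u A z ∧ W z X z ∧ W z B u := by
  obtain ⟨t0, a0, b0⟩ := W_append.1 hM
  obtain ⟨t2, h', b2⟩ := W_append.1 h
  obtain ⟨t1, a1, x1⟩ := W_append.1 h'
  obtain ⟨c, xc⟩ := hX.walk
  have hne := hX.ne
  have x2 : W c X t2 := xc.cross hne x1
  have k1 := b0.mono_left a0.endp_le
  have k2 := b2.mono_left x2.endp_le
  have k3 : W (endp u A) X (endp c X) := (x1.mono_left a1.endp_le).cross hne xc.to_endp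
  rcases k1.comp k2 with h1 | h1
  · exact ⟨_, a0.to_endp.mono_right h1, xc.to_endp.mono_left xc.endp_le, k2⟩
  · exact ⟨_, a0.to_endp, k3.mono_right h1, k1⟩

/-- The string read along a walk. -/
def heads (M : List Str) : Str := M.map fun y => y.headD 0

lemma W.le_heads {u : Str} {M : List Str} (h : W u M []) : u <+: heads M := by
  induction M generalizing u with
  | nil => exact h
  | cons y M ih =>
    obtain ⟨h1, h2, h3⟩ := h
    refine h1.trans ?_
    cases y with
    | nil => exact absurd rfl h2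
    | cons a y => exact (List.prefix_cons_inj a).2 (ih h3)

lemma V.sub_heads {z : Str} {M : List Str} (h : V [] M z) : z <:+: heads M := by
  obtain ⟨A, B, rfl, -, h⟩ := h
  refine h.le_heads.isInfix.trans ?_
  rw [heads, heads, List.map_append]
  exact (List.suffix_append _ _).isInfix

/-- The bridge: a string and its first suffixes. -/
def gam (g : Str) (k : ℕ) : List Str := (List.range k).map fun t => g.drop t

lemma W_drops (g : Str) (n : ℕ) : ∀ t, t + n ≤ g.length →
    W (g.drop t) ((List.range' t n).map fun t => g.drop t) (g.drop (t + n)) := by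
  induction n with
  | zero => intro t _; exact List.prefix_rfl
  | succ n ih =>
    intro t ht
    rw [List.range'_succ, List.map_cons]
    refine ⟨List.prefix_rfl, by simp; omega, ?_⟩
    rw [List.tail_drop, show t + (n + 1) = t + 1 + n by omega]
    exact ih (t + 1) (by omega)

/-- Vertices of a bridge. -/
def GV (g : Str) (k : ℕ) (z : Str) : Prop :=
  (g.drop k <+: z ∧ z <+: g) ∨ ∃ t ≤ k, z = g.drop t

lemma GV.cv {g z : Str} {k : ℕ} (h0 : 0 < k) (hk : k ≤ g.length) (hg : g.drop k <+: g)
    (h : GV g k z) : CV (gam g k) z := by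
  have hne : gam g k ≠ [] := by simp [gam]; omega
  have h1 : ∀ t ≤ k, gam g k = ((List.range' 0 t).map fun t => g.drop t) ++
      (List.range' t (k - t)).map fun t => g.drop t := fun t ht => by
    rw [← List.map_append, gam, List.range_eq_range']
    congr 1
    have := List.range'_append_1 (s := 0) (m := t) (n := k - t)
    simp only [zero_add] at this
    rw [this]; congr 1; omega
  refine ⟨hne, ?_⟩
  rcases h with ⟨h2, h3⟩ | ⟨t, ht, rfl⟩
  · refine ⟨[], gam g k, rfl, ?_⟩
    have := W_drops g k 0 (by omega)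
    rw [List.append_nil, gam, List.range_eq_range']
    simp only [List.drop_zero, zero_add] at this
    exact (this.mono_left h3).mono_right h2
  · refine ⟨_, _, h1 t ht, ?_⟩
    have k1 := W_drops g (k - t) t (by omega)
    have k2 := W_drops g t 0 (by omega)
    simp only [List.drop_zero, zero_add] at k2
    rw [show t + (k - t) = k by omega] at k1
    exact (k1.mono_right hg).append k2

end Vale.Agent.P333
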